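import Mathlib

/-! # P267 / H983: the density of route K in the form of the Čech (Atiyah cocycle) density

`x b = ∂̄_0 ρ_b`, `y b = ∂̄_1 ρ_b`; `al b j = J⁻¹ ∂_j J`, `ep b j = E⁻¹ ∂_j E` (matrices).
`P j = ½ ∑ x_b al_b,j`, `Q j = ½ ∑ y_b al_b,j`, `e1 j = ∑ x_b ep_b,j`, `e2 j = ∑ y_b ep_b,j`. -/

open Finset

noncomputable section

namespace Vale.Agent.P267.H983

variable {I : Type*} [Fintype I] {m n : Type*} [Fintype m] [Fintype n]

/-- `x ∧ y = x_0 y_1 - x_1 y_0` -/
def w2 (x y : Fin 2 → ℂ) : ℂ := x 0 * y 1 - x 1 * y 0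

/-- `tr (x ∧ y)` -/
def tw (x y : Fin 2 → Matrix m m ℂ) : ℂ := (x 0 * y 1 - x 1 * y 0).trace

theorem w2_swap (x y : Fin 2 → ℂ) : w2 y x = -w2 x y := by
  simp only [w2]; ring

theorem tw_swap (x y : Fin 2 → Matrix m m ℂ) : tw y x = -tw x y := by
  simp only [tw, Matrix.trace_sub, Matrix.trace_mul_comm (y 0), Matrix.trace_mul_comm (y 1)]
  ring

/-- trace of a matrix valued `(1,0)`-form -/
def trf (x : Fin 2 → Matrix m m ℂ) (j : Fin 2) : ℂ := (x j).trace

/-- the density of 509 (`R_abc`), for `rk = r` -/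
def Rabc (r : ℂ) (al al' : Fin 2 → Matrix m m ℂ) (ep ep' : Fin 2 → Matrix n n ℂ) : ℂ :=
  r * ((1 / 8) * w2 (trf al) (trf al') - (1 / 24) * tw al al') +
    (1 / 4) * (w2 (trf al) (trf ep') + w2 (trf ep) (trf al')) + (1 / 2) * tw ep ep'

theorem Rabc_swap (r : ℂ) (al al' : Fin 2 → Matrix m m ℂ) (ep ep' : Fin 2 → Matrix n n ℂ) :
    Rabc r al' al ep' ep = -Rabc r al al' ep ep' := by
  simp only [Rabc]
  rw [w2_swap (trf al), tw_swap al, tw_swap ep, w2_swap (trf ep), w2_swap (trf al)]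
  ring

theorem antisymm_sum (x y : I → ℂ) (R : I → I → ℂ) (hR : ∀ b c, R c b = -R b c) :
    ∑ b, ∑ c, (x b * y c - y b * x c) * R b c = 2 * ∑ b, ∑ c, x b * y c * R b c := by
  have h1 : ∑ b, ∑ c, (x b * y c - y b * x c) * R b c =
      ∑ b, ∑ c, x b * y c * R b c - ∑ b, ∑ c, y b * x c * R b c := by
    rw [← sum_sub_distrib]
    refine sum_congr rfl fun b _ => ?_
    rw [← sum_sub_distrib]
    refine sum_congr rfl fun c _ => ?_
    ring
  have h2 : ∑ b, ∑ c, y b * x c * R b c = -∑ b, ∑ c, x b * y c * R b c := by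
    rw [sum_comm, ← sum_neg_distrib]
    refine sum_congr rfl fun b _ => ?_
    rw [← sum_neg_distrib]
    refine sum_congr rfl fun c _ => ?_
    rw [hR b c]
    ring
  rw [h1, h2]
  ring

theorem w2_sum (x y : I → ℂ) (a b : I → Fin 2 → ℂ) :
    w2 (∑ i, x i • a i) (∑ i, y i • b i) = ∑ i, ∑ j, x i * y j * w2 (a i) (b j) := by
  simp only [w2, Finset.sum_apply, Pi.smul_apply, smul_eq_mul]
  rw [sum_mul_sum, sum_mul_sum, ← sum_sub_distrib]
  refine sum_congr rfl fun i _ => ?_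
  rw [← sum_sub_distrib]
  refine sum_congr rfl fun j _ => ?_
  ring

theorem tw_sum (x y : I → ℂ) (a b : I → Fin 2 → Matrix m m ℂ) :
    tw (∑ i, x i • a i) (∑ i, y i • b i) = ∑ i, ∑ j, x i * y j * tw (a i) (b j) := by
  simp only [tw, Finset.sum_apply, Pi.smul_apply]
  rw [sum_mul_sum, sum_mul_sum, Matrix.trace_sub, Matrix.trace_sum, Matrix.trace_sum,
    ← sum_sub_distrib]
  refine sum_congr rfl fun i _ => ?_
  rw [Matrix.trace_sum, Matrix.trace_sum, ← sum_sub_distrib]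
  refine sum_congr rfl fun j _ => ?_
  simp only [Matrix.smul_mul, Matrix.mul_smul, Matrix.trace_smul, Matrix.trace_sub, smul_eq_mul]
  ring

theorem trf_sum (x : I → ℂ) (a : I → Fin 2 → Matrix m m ℂ) :
    trf (∑ i, x i • a i) = ∑ i, x i • trf (a i) := by
  funext j
  simp only [trf, Finset.sum_apply, Pi.smul_apply, Matrix.trace_sum, Matrix.trace_smul]

theorem trf_smul (c : ℂ) (a : Fin 2 → Matrix m m ℂ) : trf (c • a) = c • trf a := by
  funext j
  simp only [trf, Pi.smul_apply, Matrix.trace_smul]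

theorem w2_smul_left (c : ℂ) (x y : Fin 2 → ℂ) : w2 (c • x) y = c * w2 x y := by
  simp only [w2, Pi.smul_apply, smul_eq_mul]; ring

theorem w2_smul_right (c : ℂ) (x y : Fin 2 → ℂ) : w2 x (c • y) = c * w2 x y := by
  simp only [w2, Pi.smul_apply, smul_eq_mul]; ring

theorem tw_smul_left (c : ℂ) (x y : Fin 2 → Matrix m m ℂ) : tw (c • x) y = c * tw x y := by
  simp only [tw, Pi.smul_apply, Matrix.smul_mul, ← smul_sub, Matrix.trace_smul, smul_eq_mul]

theorem tw_smul_right (c : ℂ) (x y : Fin 2 → Matrix m m ℂ) : tw x (c • y) = c * tw x y := by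
  simp only [tw, Pi.smul_apply, Matrix.mul_smul, ← smul_sub, Matrix.trace_smul, smul_eq_mul]

/-- **Route K density = Čech density.** -/
theorem density_eq (r : ℂ) (x y : I → ℂ) (al : I → Fin 2 → Matrix m m ℂ)
    (ep : I → Fin 2 → Matrix n n ℂ) (P Q : Fin 2 → Matrix m m ℂ) (e1 e2 : Fin 2 → Matrix n n ℂ)
    (hP : P = (1 / 2 : ℂ) • ∑ b, x b • al b) (hQ : Q = (1 / 2 : ℂ) • ∑ b, y b • al b)
    (he1 : e1 = ∑ b, x b • ep b) (he2 : e2 = ∑ b, y b • ep b) :
    r * (w2 (trf P) (trf Q) - (1 / 3) * tw P Q) + w2 (trf e1) (trf Q) + w2 (trf P) (trf e2) +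
        tw e1 e2 =
      ∑ b, ∑ c, (x b * y c - y b * x c) * Rabc r (al b) (al c) (ep b) (ep c) := by
  rw [antisymm_sum _ _ _ fun b c => Rabc_swap r (al b) (al c) (ep b) (ep c)]
  subst hP hQ he1 he2
  simp only [trf_smul, trf_sum, w2_smul_left, w2_smul_right, tw_smul_left, tw_smul_right, w2_sum,
    tw_sum]
  have h : ∑ b, ∑ c, x b * y c * Rabc r (al b) (al c) (ep b) (ep c) =
      r * ((1 / 8) * (∑ i, ∑ j, x i * y j * w2 (trf (al i)) (trf (al j))) -
        (1 / 24) * ∑ i, ∑ j, x i * y j * tw (al i) (al j)) +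
      (1 / 4) * ((∑ i, ∑ j, x i * y j * w2 (trf (al i)) (trf (ep j))) +
        ∑ i, ∑ j, x i * y j * w2 (trf (ep i)) (trf (al j))) +
      (1 / 2) * ∑ i, ∑ j, x i * y j * tw (ep i) (ep j) := by
    simp only [mul_sum, ← sum_add_distrib, ← sum_sub_distrib]
    refine sum_congr rfl fun i _ => sum_congr rfl fun j _ => ?_
    simp only [Rabc]
    ring
  rw [h]
  ring

/-- the density of `Ω¹` (`ep = -alᵀ`) and `10` times the one of `𝒪` add up to `k ∧ k'`. -/
theorem noether_density (al al' : Fin 2 → Matrix m m ℂ) :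
    10 * Rabc 1 al al' (0 : Fin 2 → Matrix n n ℂ) 0 +
      Rabc 2 al al' (fun j => -(al j).transpose) (fun j => -(al' j).transpose) =
        w2 (trf al) (trf al') := by
  have h1 : trf (fun j => -(al j).transpose) = -trf al := by
    funext j; simp [trf]
  have h2 : trf (fun j => -(al' j).transpose) = -trf al' := by
    funext j; simp [trf]
  have h3 : tw (fun j => -(al j).transpose) (fun j => -(al' j).transpose) = tw al al' := by
    simp only [tw, neg_mul, mul_neg, neg_neg, ← Matrix.transpose_mul, ← Matrix.transpose_sub,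
      Matrix.trace_transpose, Matrix.trace_sub, Matrix.trace_mul_comm (al' 1),
      Matrix.trace_mul_comm (al' 0)]
  have h4 : trf (0 : Fin 2 → Matrix n n ℂ) = 0 := by
    funext j; simp [trf]
  simp only [Rabc, h1, h2, h3, h4]
  simp only [w2, tw, Pi.neg_apply, Pi.zero_apply, Matrix.trace_sub]
  simp
  ring

end Vale.Agent.P267.H983
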