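import Mathlib

/-! # P267 / H983: dimensions of the cohomology of a three term complex of complex vector spaces

`hh0 d0`, `hh1 d0 d1`, `hh2 d1`; they do not change under isomorphisms of complexes. -/

set_option linter.unusedSectionVars false

open Module

noncomputable section

namespace Vale.Agent.P267.H983

section alg

variable {M : Type*} [AddCommGroup M] [Module ℂ M]

/-- quotients of submodules of a submodule -/
theorem finrank_quot_map {S : Submodule ℂ M} (Z B : Submodule ℂ S) {Z' B' : Submodule ℂ M}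
    (hZ : Z' = Z.map S.subtype) (hB : B' = B.map S.subtype) :
    finrank ℂ (Z' ⧸ B'.comap Z'.subtype) = finrank ℂ (Z ⧸ B.comap Z.subtype) := by
  subst hZ
  subst hB
  let f : Z ≃ₗ[ℂ] Z.map S.subtype := Z.equivMapOfInjective S.subtype S.injective_subtype
  refine (LinearEquiv.finrank_eq (Submodule.Quotient.equiv _ _ f ?_)).symm
  ext y
  obtain ⟨z, rfl⟩ := f.surjective y
  constructor
  · rintro ⟨z', hz', h⟩
    have h' : z' = z := f.injective h
    subst h'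
    exact ⟨z', hz', rfl⟩
  · intro h
    refine ⟨z, ?_, rfl⟩
    obtain ⟨b, hb, h2⟩ := h
    have h3 : b = (z : S) := S.injective_subtype h2
    change (z : S) ∈ B
    rw [← h3]
    exact hb

theorem finrank_quot_eq' {Z B : Submodule ℂ M} {Z' B' : Submodule ℂ M} (hZ : Z' = Z)
    (hB : B' = B) : finrank ℂ (Z' ⧸ B'.comap Z'.subtype) = finrank ℂ (Z ⧸ B.comap Z.subtype) := by
  subst hZ
  subst hB
  rfl

variable {A0 A1 A2 A0' A1' A2' : Type*} [AddCommGroup A0] [Module ℂ A0] [AddCommGroup A1]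
  [Module ℂ A1] [AddCommGroup A2] [Module ℂ A2] [AddCommGroup A0'] [Module ℂ A0']
  [AddCommGroup A1'] [Module ℂ A1'] [AddCommGroup A2'] [Module ℂ A2']

/-- dimension of the cohomology in degree `0` -/
def hh0 (d : A0 →ₗ[ℂ] A1) : ℕ := finrank ℂ (LinearMap.ker d)

/-- dimension of the cohomology in degree `1` -/
def hh1 (d0 : A0 →ₗ[ℂ] A1) (d1 : A1 →ₗ[ℂ] A2) : ℕ :=
  finrank ℂ (LinearMap.ker d1 ⧸ (LinearMap.range d0).comap (LinearMap.ker d1).subtype)

/-- dimension of the cohomology in degree `2` -/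
def hh2 (d1 : A1 →ₗ[ℂ] A2) : ℕ := finrank ℂ (A2 ⧸ LinearMap.range d1)

/-- isomorphic complexes have the same cohomology: degree `0` -/
theorem hh0_congr (d : A0 →ₗ[ℂ] A1) (d' : A0' →ₗ[ℂ] A1') (f0 : A0 ≃ₗ[ℂ] A0')
    (f1 : A1 ≃ₗ[ℂ] A1') (h : ∀ a, f1 (d a) = d' (f0 a)) :
    hh0 d = hh0 d' := by
  rw [hh0, hh0]
  have hm : (LinearMap.ker d).map (f0 : A0 →ₗ[ℂ] A0') = LinearMap.ker d' := by
    ext y
    constructor
    · rintro ⟨a, ha, rfl⟩
      have : d a = 0 := ha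
      simp [← h, this]
    · intro hy
      refine ⟨f0.symm y, ?_, by simp⟩
      have : f1 (d (f0.symm y)) = 0 := by rw [h]; simpa using hy
      simpa using this
  rw [← hm]
  exact (LinearEquiv.finrank_map_eq f0 _).symm

/-- isomorphic complexes have the same cohomology: degree `1` -/
theorem hh1_congr (d0 : A0 →ₗ[ℂ] A1) (d1 : A1 →ₗ[ℂ] A2) (d0' : A0' →ₗ[ℂ] A1')
    (d1' : A1' →ₗ[ℂ] A2') (f0 : A0 ≃ₗ[ℂ] A0') (f1 : A1 ≃ₗ[ℂ] A1') (f2 : A2 ≃ₗ[ℂ] A2')
    (h0 : ∀ a, f1 (d0 a) = d0' (f0 a)) (h1 : ∀ a, f2 (d1 a) = d1' (f1 a)) :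
    hh1 d0 d1 = hh1 d0' d1' := by
  rw [hh1, hh1]
  have hm : ∀ a, a ∈ LinearMap.ker d1 ↔ f1 a ∈ LinearMap.ker d1' := by
    intro a
    rw [LinearMap.mem_ker, LinearMap.mem_ker, ← h1]
    exact ⟨fun h => by rw [h, map_zero], fun h => by simpa using h⟩
  let f : LinearMap.ker d1 ≃ₗ[ℂ] LinearMap.ker d1' :=
    f1.submoduleMap (LinearMap.ker d1) |>.trans (LinearEquiv.ofEq _ _ (by
      ext y
      constructor
      · rintro ⟨a, ha, rfl⟩
        exact (hm a).1 ha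
      · intro hy
        refine ⟨f1.symm y, (hm _).2 (by simpa using hy), by simp⟩))
  have hf : ∀ a : LinearMap.ker d1, ((f a : LinearMap.ker d1') : A1') = f1 a := fun a => rfl
  refine LinearEquiv.finrank_eq (Submodule.Quotient.equiv _ _ f ?_)
  ext y
  obtain ⟨a, rfl⟩ := f.surjective y
  constructor
  · rintro ⟨a', ⟨b, hb⟩, h⟩
    have h' : a' = a := f.injective h
    subst h'
    refine ⟨f0 b, ?_⟩
    change d0' (f0 b) = ((f a' : LinearMap.ker d1') : A1')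
    rw [hf, ← h0, hb]
    rfl
  · rintro ⟨b, hb⟩
    refine ⟨a, ⟨f0.symm b, ?_⟩, rfl⟩
    have h2 : d0' b = f1 a := hb
    have : f1 (d0 (f0.symm b)) = f1 a := by rw [h0, ← h2]; simp
    exact f1.injective this

/-- isomorphic complexes have the same cohomology: degree `2` -/
theorem hh2_congr (d1 : A1 →ₗ[ℂ] A2) (d1' : A1' →ₗ[ℂ] A2') (f1 : A1 ≃ₗ[ℂ] A1')
    (f2 : A2 ≃ₗ[ℂ] A2') (h1 : ∀ a, f2 (d1 a) = d1' (f1 a)) :
    hh2 d1 = hh2 d1' := by
  rw [hh2, hh2]
  refine LinearEquiv.finrank_eq (Submodule.Quotient.equiv _ _ f2 ?_)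
  ext y
  constructor
  · rintro ⟨_, ⟨a, rfl⟩, rfl⟩
    exact ⟨f1 a, (h1 a).symm⟩
  · rintro ⟨a, rfl⟩
    exact ⟨d1 (f1.symm a), ⟨_, rfl⟩, by simp [h1]⟩

end alg

end Vale.Agent.P267.H983
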