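import Vale.Agent.P267.H469.Inst
import Vale.Agent.P267.H221.Out

/-! # P267 / H983: the complex of `(1,q)`-forms (calculus)

Chart formulas for the `(1,2)`-forms of `H221/Out.lean` and for `∂̄ : Ω^{1,1} → Ω^{1,2}`; the spaces
`HOm0`, `ZOm1`, `BOm1`, `ZOm2`, `BOm2` without spans. -/

set_option linter.unusedSectionVars false

open scoped Manifold ContDiff ComplexConjugate Topology
open Set

noncomputable section

namespace Vale.Agent.P267.H983

open Vale.Agent.P267.FL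
open Vale.Agent.P267.H469 (J JM ov tr isOpen_ov ov_nhds S10 S11 S12 cj1 cj11 cj0)
open Vale.Agent.P267.RR (loc12 Reg12 HOm0 ZOm1 BOm1 ZOm2 BOm2 h10 h11 h12 chiOm)

variable {X : Type*} [TopologicalSpace X] [ChartedSpace C2 X] [IsManifold 𝓘(ℂ, C2) ω X]

theorem loc12_eq_conj (e : Ch X) (b : X → Fin 2 → ℂ) (z : C2) (i : Fin 2) :
    loc12 e b z i = conj (loc1 1 e (cj1 b) z i) := by
  unfold loc12 loc1 cj1
  simp only [zpow_one, smul_eq_mul, map_mul, map_sum, Complex.conj_conj]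
  rw [Finset.mul_sum]
  refine Finset.sum_congr rfl fun p _ => ?_
  ring

theorem reg12_iff {b : X → Fin 2 → ℂ} : Reg12 b ↔ b ∈ S12 X := by
  rw [H469.mem_S12]
  constructor
  · intro h e he
    rw [contDiffOn_pi]
    intro i
    refine (H469.conj_contDiffOn ((contDiffOn_pi.1 (h e he)) i)).congr fun z _ => ?_
    rw [loc12_eq_conj, Complex.conj_conj]
  · intro h e he
    rw [contDiffOn_pi]
    intro i
    exact (H469.conj_contDiffOn ((contDiffOn_pi.1 (h e he)) i)).congr fun z _ =>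
      loc12_eq_conj e b z i

theorem rr_dbar11 (g : X → Matrix (Fin 2) (Fin 2) ℂ) : RR.dbar11 g = H469.dbar11 g := by
  funext x i
  unfold RR.dbar11 H469.dbar11 H469.cj1 H469.del11
  simp only [H469.loc11_cj11]
  rw [H469.dz_neg, H469.dz_neg, H469.dz_conj, H469.dz_conj]
  simp only [map_sub, map_neg, Complex.conj_conj]
  ring

/-- `∂̄` of a `(1,1)`-form in an arbitrary chart -/
theorem dbar11_law {g : X → Matrix (Fin 2) (Fin 2) ℂ} (hg : Reg11 1 g) {e : Ch X}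
    (he : e ∈ atlas C2 X) {w : C2} (hw : w ∈ e.target) (i : Fin 2) :
    loc12 e (RR.dbar11 g) w i =
      -(dzb 0 (fun v => loc11 e g v i 1) w - dzb 1 (fun v => loc11 e g v i 0) w) := by
  rw [rr_dbar11, loc12_eq_conj, H469.dbar11, H469.cj1_cj1,
    H469.del11_law (H469.r11cj hg) he hw]
  simp only [H469.loc11_cj11]
  rw [H469.dz_neg, H469.dz_neg, H469.dz_conj, H469.dz_conj]
  simp only [map_sub, map_neg, Complex.conj_conj]
  ring

theorem loc12_tr {e e' : Ch X} (he : e ∈ atlas C2 X) (he' : e' ∈ atlas C2 X) {w : C2}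
    (hw : w ∈ ov e e') (b : X → Fin 2 → ℂ) (i : Fin 2) :
    loc12 e b w i = ∑ p, J e e' p i w * conj (JM e e' w).det * loc12 e' b (tr e e' w) p := by
  simp only [loc12_eq_conj]
  rw [H469.loc1_tr he he' hw]
  simp only [zpow_one, smul_eq_mul, map_mul, map_sum, Complex.conj_conj]
  rw [Finset.mul_sum]
  refine Finset.sum_congr rfl fun p _ => ?_
  ring

theorem loc12_at (b : X → Fin 2 → ℂ) (x : X) (i : Fin 2) :
    loc12 (chartAt C2 x) b (chartAt C2 x x) i = b x i := by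
  rw [loc12_eq_conj, H469.loc1_at]
  simp [cj1]

/-! ### the spaces -/

section spaces

variable (X)

/-- `∂̄` on `(1,0)`-forms -/
abbrev d10 : S10 X →ₗ[ℂ] S11 X := H469.dbar10L
/-- `∂̄` on `(1,1)`-forms -/
abbrev d11 : S11 X →ₗ[ℂ] S12 X := H469.dbar11L

theorem HOm0_eq : HOm0 X = (LinearMap.ker (d10 X)).map (S10 X).subtype := by
  have h : {c : X → Fin 2 → ℂ | Reg10 ∞ c ∧ dbar10 c = 0} =
      ((LinearMap.ker (d10 X)).map (S10 X).subtype : Submodule ℂ (X → Fin 2 → ℂ)) := by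
    ext c
    constructor
    · rintro ⟨h1, h2⟩
      exact ⟨⟨c, h1⟩, LinearMap.mem_ker.2 (Subtype.ext h2), rfl⟩
    · rintro ⟨c', hc, rfl⟩
      exact ⟨c'.2, congrArg Subtype.val (LinearMap.mem_ker.1 hc)⟩
  rw [HOm0, h, Submodule.span_eq]

theorem ZOm1_eq : ZOm1 X = (LinearMap.ker (d11 X)).map (S11 X).subtype := by
  have h : {g : X → Matrix (Fin 2) (Fin 2) ℂ | Reg11 ∞ g ∧ RR.dbar11 g = 0} =
      ((LinearMap.ker (d11 X)).map (S11 X).subtype :
        Submodule ℂ (X → Matrix (Fin 2) (Fin 2) ℂ)) := by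
    ext c
    constructor
    · rintro ⟨h1, h2⟩
      rw [rr_dbar11] at h2
      exact ⟨⟨c, h1⟩, LinearMap.mem_ker.2 (Subtype.ext h2), rfl⟩
    · rintro ⟨c', hc, rfl⟩
      refine ⟨c'.2, ?_⟩
      rw [rr_dbar11]
      exact congrArg Subtype.val (LinearMap.mem_ker.1 hc)
  rw [ZOm1, h, Submodule.span_eq]

theorem BOm1_eq : BOm1 X = (LinearMap.range (d10 X)).map (S11 X).subtype := by
  have h : {g : X → Matrix (Fin 2) (Fin 2) ℂ | ∃ c, Reg10 ∞ c ∧ dbar10 c = g} =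
      ((LinearMap.range (d10 X)).map (S11 X).subtype :
        Submodule ℂ (X → Matrix (Fin 2) (Fin 2) ℂ)) := by
    ext g
    constructor
    · rintro ⟨c, h1, rfl⟩
      exact ⟨d10 X ⟨c, h1⟩, ⟨_, rfl⟩, rfl⟩
    · rintro ⟨_, ⟨c, rfl⟩, rfl⟩
      exact ⟨c, c.2, rfl⟩
  rw [BOm1, h, Submodule.span_eq]

theorem ZOm2_eq : ZOm2 X = S12 X := by
  have h : {b : X → Fin 2 → ℂ | Reg12 b} = (S12 X : Submodule ℂ (X → Fin 2 → ℂ)) := by
    ext b
    exact reg12_iff
  rw [ZOm2, h, Submodule.span_eq]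

theorem BOm2_eq : BOm2 X = (LinearMap.range (d11 X)).map (S12 X).subtype := by
  have h : {b : X → Fin 2 → ℂ | ∃ g, Reg11 ∞ g ∧ RR.dbar11 g = b} =
      ((LinearMap.range (d11 X)).map (S12 X).subtype :
        Submodule ℂ (X → Fin 2 → ℂ)) := by
    ext g
    constructor
    · rintro ⟨c, h1, rfl⟩
      refine ⟨d11 X ⟨c, h1⟩, ⟨_, rfl⟩, ?_⟩
      rw [rr_dbar11]
      rfl
    · rintro ⟨_, ⟨c, rfl⟩, rfl⟩
      refine ⟨c, c.2, ?_⟩
      rw [rr_dbar11]
      rfl
  rw [BOm2, h, Submodule.span_eq]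

end spaces

end Vale.Agent.P267.H983
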