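import Vale.Agent.P267.H983.Glue
import Vale.Agent.P267.H983.Om1

/-! # P267 / H983: gluing forms of type `(1,0)`, `(1,1)`, `(1,2)` -/

set_option linter.unusedSectionVars false

open scoped Manifold ContDiff ComplexConjugate Topology Matrix
open Set

noncomputable section

namespace Vale.Agent.P267.H983

open Vale.Agent.P267.FL
open Vale.Agent.P267.H469 (J JM ov tr isOpen_ov ov_nhds)
open Vale.Agent.P267.RR (loc12 Reg12)

variable {X : Type*} [TopologicalSpace X] [ChartedSpace C2 X] [IsManifold 𝓘(ℂ, C2) ω X]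
variable {I : Type*} {e : I → Ch X} {U : I → Set X}

theorem contDiff_entry {n : WithTop ℕ∞} (p i : Fin 2) :
    ContDiff ℝ n fun M : Fin 2 → Fin 2 → ℂ => M p i := by fun_prop

theorem contDiff_conj_entry {n : WithTop ℕ∞} (p i : Fin 2) :
    ContDiff ℝ n fun M : Fin 2 → Fin 2 → ℂ => conj (M p i) :=
  Complex.conjCLE.contDiff.comp (contDiff_entry p i)

/-- representation for `(1,0)`-forms -/
def rho10 (M : Matrix (Fin 2) (Fin 2) ℂ) : Matrix (Fin 2) (Fin 2) ℂ := Mᵀ

/-- representation for `(1,1)`-forms -/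
def rho11 (M : Matrix (Fin 2) (Fin 2) ℂ) : Matrix (Fin 2 × Fin 2) (Fin 2 × Fin 2) ℂ :=
  Matrix.of fun k l => M l.1 k.1 * conj (M l.2 k.2)

/-- representation for `(1,2)`-forms -/
def rho12 (M : Matrix (Fin 2) (Fin 2) ℂ) : Matrix (Fin 2) (Fin 2) ℂ := (conj M.det) • Mᵀ

theorem rho10_mul (M N : Matrix (Fin 2) (Fin 2) ℂ) : rho10 (M * N) = rho10 N * rho10 M :=
  Matrix.transpose_mul M N

theorem rho11_mul (M N : Matrix (Fin 2) (Fin 2) ℂ) : rho11 (M * N) = rho11 N * rho11 M := by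
  ext ⟨i, j⟩ ⟨k, l⟩
  simp only [rho11, Matrix.of_apply, Matrix.mul_apply, Fintype.sum_prod_type, Fin.sum_univ_two,
    map_add, map_mul]
  ring

theorem rho12_mul (M N : Matrix (Fin 2) (Fin 2) ℂ) : rho12 (M * N) = rho12 N * rho12 M := by
  simp only [rho12, Matrix.det_mul, map_mul, Matrix.transpose_mul, Matrix.smul_mul,
    Matrix.mul_smul, smul_smul]

theorem loc10_eq (e : Ch X) (c : X → Fin 2 → ℂ) (z : C2) (i : Fin 2) :
    loc10 e c z i = (rho10 (jac e (e.symm z))).mulVec (c (e.symm z)) i := by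
  simp [loc10, rho10, Matrix.mulVec, dotProduct]

theorem loc11_eq (e : Ch X) (g : X → Matrix (Fin 2) (Fin 2) ℂ) (z : C2) (i j : Fin 2) :
    loc11 e g z i j =
      (rho11 (jac e (e.symm z))).mulVec (fun k => g (e.symm z) k.1 k.2) (i, j) := by
  simp only [loc11, rho11, Matrix.mulVec, dotProduct, Matrix.of_apply, Fintype.sum_prod_type,
    smul_eq_mul]

theorem loc12_eq (e : Ch X) (b : X → Fin 2 → ℂ) (z : C2) (i : Fin 2) :
    loc12 e b z i = (rho12 (jac e (e.symm z))).mulVec (b (e.symm z)) i := by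
  simp only [loc12, rho12, Matrix.mulVec, dotProduct, Matrix.smul_apply, Matrix.transpose_apply,
    smul_eq_mul]
  refine Finset.sum_congr rfl fun p _ => ?_
  ring

theorem rho10_one : rho10 1 = 1 := Matrix.transpose_one

theorem rho11_one : rho11 1 = 1 := by
  ext ⟨i, j⟩ ⟨k, l⟩
  simp only [rho11, Matrix.of_apply, Matrix.one_apply, Prod.mk.injEq, eq_comm (a := i),
    eq_comm (a := j)]
  by_cases h1 : k = i <;> by_cases h2 : l = j <;> simp [h1, h2]

theorem rho12_one : rho12 1 = 1 := by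
  simp [rho12]

theorem ext10 (H : Cover e U) {c c' : X → Fin 2 → ℂ}
    (h : ∀ a, ∀ z ∈ OO (e a) (U a), loc10 (e a) c z = loc10 (e a) c' z) : c = c' := by
  refine ext_rho rho10 rho10_one rho10_mul H fun a x hx => ?_
  funext i
  have h2 := congrFun (h a _ (mem_OO hx (H.sub a))) i
  rw [loc10_eq, loc10_eq, (e a).left_inv (H.sub a hx)] at h2
  exact h2

theorem ext11 (H : Cover e U) {g g' : X → Matrix (Fin 2) (Fin 2) ℂ}
    (h : ∀ a, ∀ z ∈ OO (e a) (U a), ∀ i j, loc11 (e a) g z i j = loc11 (e a) g' z i j) :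
    g = g' := by
  have h3 : (fun x (k : Fin 2 × Fin 2) => g x k.1 k.2) = fun x k => g' x k.1 k.2 := by
    refine ext_rho rho11 rho11_one rho11_mul H fun a x hx => ?_
    funext i
    have h2 := h a _ (mem_OO hx (H.sub a)) i.1 i.2
    rw [loc11_eq, loc11_eq, (e a).left_inv (H.sub a hx)] at h2
    exact h2
  funext x
  ext i j
  exact congrFun (congrFun h3 x) (i, j)

theorem ext12 (H : Cover e U) {c c' : X → Fin 2 → ℂ}
    (h : ∀ a, ∀ z ∈ OO (e a) (U a), loc12 (e a) c z = loc12 (e a) c' z) : c = c' := by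
  refine ext_rho rho12 rho12_one rho12_mul H fun a x hx => ?_
  funext i
  have h2 := congrFun (h a _ (mem_OO hx (H.sub a))) i
  rw [loc12_eq, loc12_eq, (e a).left_inv (H.sub a hx)] at h2
  exact h2

/-- gluing of `(1,0)`-forms -/
theorem glue10 {n : WithTop ℕ∞} (H : Cover e U) (u : I → C2 → Fin 2 → ℂ)
    (hu : ∀ a, ContDiffOn ℝ n (u a) (OO (e a) (U a)))
    (hc : ∀ a b, ∀ x ∈ U a, x ∈ U b → ∀ i,
      u a (e a x) i = ∑ p, jacM (e a) (e b) x p i * u b (e b x) p) :
    ∃ c : X → Fin 2 → ℂ, Reg10 n c ∧ ∀ a, ∀ z ∈ OO (e a) (U a), loc10 (e a) c z = u a z := by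
  obtain ⟨c, h1, h2⟩ := glue (n := n) rho10 rho10_mul
    (fun k l => contDiff_entry l k) H u (fun a k => (contDiffOn_pi.1 (hu a)) k)
    (fun a b x hx hx' => by
      funext i
      rw [hc a b x hx hx' i]
      simp [rho10, Matrix.mulVec, dotProduct])
  refine ⟨c, fun e' he' => ?_, fun a z hz => ?_⟩
  · rw [contDiffOn_pi]
    intro i
    exact (h2 e' he' i).congr fun z _ => loc10_eq e' c z i
  · funext i
    rw [loc10_eq, h1 a _ hz.2, (e a).right_inv hz.1]

/-- gluing of `(1,1)`-forms -/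
theorem glue11 {n : WithTop ℕ∞} (H : Cover e U) (u : I → C2 → Fin 2 → Fin 2 → ℂ)
    (hu : ∀ a i j, ContDiffOn ℝ n (fun z => u a z i j) (OO (e a) (U a)))
    (hc : ∀ a b, ∀ x ∈ U a, x ∈ U b → ∀ i j, u a (e a x) i j =
      ∑ p, ∑ q, jacM (e a) (e b) x p i * conj (jacM (e a) (e b) x q j) * u b (e b x) p q) :
    ∃ g : X → Matrix (Fin 2) (Fin 2) ℂ, Reg11 n g ∧
      ∀ a, ∀ z ∈ OO (e a) (U a), ∀ i j, loc11 (e a) g z i j = u a z i j := by
  obtain ⟨c, h1, h2⟩ := glue (n := n) rho11 rho11_mul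
    (fun k l => (contDiff_entry l.1 k.1).mul (contDiff_conj_entry l.2 k.2)) H
    (fun a z k => u a z k.1 k.2) (fun a k => hu a k.1 k.2)
    (fun a b x hx hx' => by
      funext i
      rw [hc a b x hx hx' i.1 i.2]
      simp only [rho11, Matrix.mulVec, dotProduct, Matrix.of_apply, Fintype.sum_prod_type])
  refine ⟨fun x => Matrix.of fun i j => c x (i, j), fun e' he' i j => ?_, fun a z hz i j => ?_⟩
  · exact (h2 e' he' (i, j)).congr fun z _ => loc11_eq e' _ z i j
  · rw [loc11_eq]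
    have := congrFun (h1 a _ hz.2) (i, j)
    rw [(e a).right_inv hz.1] at this
    exact this

/-- gluing of `(1,2)`-forms -/
theorem glue12 (H : Cover e U) (u : I → C2 → Fin 2 → ℂ)
    (hu : ∀ a, ContDiffOn ℝ ∞ (u a) (OO (e a) (U a)))
    (hc : ∀ a b, ∀ x ∈ U a, x ∈ U b → ∀ i, u a (e a x) i =
      ∑ p, jacM (e a) (e b) x p i * conj (jacM (e a) (e b) x).det * u b (e b x) p) :
    ∃ c : X → Fin 2 → ℂ, Reg12 c ∧ ∀ a, ∀ z ∈ OO (e a) (U a), loc12 (e a) c z = u a z := by
  obtain ⟨c, h1, h2⟩ := glue (n := ∞) rho12 rho12_mul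
    (fun k l => by
      have h : (fun M : Fin 2 → Fin 2 → ℂ => rho12 (Matrix.of M) k l) =
          fun M : Fin 2 → Fin 2 → ℂ => (conj (M 0 0) * conj (M 1 1) -
            conj (M 0 1) * conj (M 1 0)) * M l k := by
        funext M
        simp [rho12, Matrix.det_fin_two]
      rw [h]
      exact (((contDiff_conj_entry 0 0).mul (contDiff_conj_entry 1 1)).sub
        ((contDiff_conj_entry 0 1).mul (contDiff_conj_entry 1 0))).mul (contDiff_entry l k)) H u
    (fun a k => (contDiffOn_pi.1 (hu a)) k)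
    (fun a b x hx hx' => by
      funext i
      rw [hc a b x hx hx' i]
      simp only [rho12, Matrix.mulVec, dotProduct, Matrix.smul_apply, Matrix.transpose_apply,
        smul_eq_mul]
      refine Finset.sum_congr rfl fun p _ => ?_
      ring)
  refine ⟨c, fun e' he' => ?_, fun a z hz => ?_⟩
  · rw [contDiffOn_pi]
    intro i
    exact (h2 e' he' i).congr fun z _ => loc12_eq e' c z i
  · funext i
    rw [loc12_eq, h1 a _ hz.2, (e a).right_inv hz.1]

end Vale.Agent.P267.H983
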