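import Vale.Agent.P267.H983.Om1
import Vale.Agent.P267.H983.Coh

/-! # P267 / H983: the numbers `h^{1,q}` as dimensions of the cohomology of a complex of modules -/

set_option linter.unusedSectionVars false

open scoped Manifold ContDiff
open Module

noncomputable section

namespace Vale.Agent.P267.H983

open Vale.Agent.P267.FL
open Vale.Agent.P267.H469 (S10 S11 S12)
open Vale.Agent.P267.RR (HOm0 ZOm1 BOm1 ZOm2 BOm2 h10 h11 h12 chiOm)


section om

variable (X : Type*) [TopologicalSpace X] [ChartedSpace C2 X] [IsManifold 𝓘(ℂ, C2) ω X]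

theorem h10_eq : h10 X = hh0 (d10 X) := by
  rw [h10, HOm0_eq, hh0]
  exact (LinearEquiv.finrank_eq
    ((LinearMap.ker (d10 X)).equivMapOfInjective _ (S10 X).injective_subtype)).symm

theorem h11_eq : h11 X = hh1 (d10 X) (d11 X) :=
  finrank_quot_map _ _ (ZOm1_eq X) (BOm1_eq X)

theorem h12_eq : h12 X = hh2 (d11 X) := by
  rw [hh2]
  have h := finrank_quot_map (⊤ : Submodule ℂ (S12 X)) (LinearMap.range (d11 X))
    (Z' := ZOm2 X) (B' := BOm2 X) (by rw [ZOm2_eq]; simp) (BOm2_eq X)
  rw [h12, h]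
  refine LinearEquiv.finrank_eq (Submodule.Quotient.equiv _ _ Submodule.topEquiv ?_)
  ext y
  constructor
  · rintro ⟨a, ha, rfl⟩
    exact ha
  · intro hy
    exact ⟨⟨y, trivial⟩, hy, rfl⟩

end om

end Vale.Agent.P267.H983
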