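import Vale.Agent.P267.H221.Sys
import Vale.Agent.P267.H983.Glue3
import Vale.Agent.P267.H983.Quot

/-! # P267 / H983: the complex of `(1,q)`-forms is the `∂̄` complex of the holomorphic bundle `Ω¹`

`omBun A : Bun A 2`, transition matrices `E a b = (J a b)^{-T}`; frames `dz_0, dz_1`.
`c ↦ (loc10 (e a) c)_a`, `g ↦ (-loc11 (e a) g)_a`, `b ↦ (loc12 (e a) b)_a`. Main theorem
`chiOm_eq : chiOm X = (omBun A).chi`. -/

set_option linter.unusedSectionVars false

open scoped Manifold ContDiff ComplexConjugate Topology Matrix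
open Set

noncomputable section

namespace Vale.Agent.P267.H983

open Vale.Agent.P267.FL
open Vale.Agent.P267.H469 (S10 S11 S12)
open Vale.Agent.P267.RR

variable {X : Type*} [TopologicalSpace X] [ChartedSpace C2 X] [IsManifold 𝓘(ℂ, C2) ω X]

/-- The cotangent bundle `Ω¹`. -/
def omBun (A : FinAt X) : Bun A 2 where
  E a b z := (A.J b a (A.tau a b z))ᵀ
  hol a b z hz i j := FinAt.jac_inv_analyticAt hz j i
  self a z hz := by
    rw [FinAt.tau_self hz]
    unfold FinAt.J
    rw [jacM_self (FinAt.symm_mem_source hz), Matrix.transpose_one]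
  comp a b c z hz hz' := by
    rw [FinAt.tau_comp c hz, FinAt.J_tau a hz, FinAt.J_tau a hz']
    have h : A.J c b (A.tau a c z) = jacM (A.e c) (A.e b) ((A.e a).symm z) := FinAt.J_tau b hz'
    rw [h, ← Matrix.transpose_mul, ← jacM_comp (A.he c) (A.he b) (A.he a)
      (FinAt.symm_mem_source' hz') (FinAt.symm_mem_source' hz) (FinAt.symm_mem_source hz.1)]

variable (A : FinAt X)

theorem cover : Cover A.e A.U where
  atl := A.he
  op := A.isOpen_U
  sub := A.U_sub
  cov x := by
    by_contra h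
    push Not at h
    have h1 : ∀ a, A.rho a x = 0 := fun a => by
      by_contra h2
      exact h a (A.rho_supp a (subset_tsupport _ h2))
    have h3 := A.rho_sum x
    simp [h1] at h3

variable {A}

theorem ov_of {a b : Fin A.N} {z : C2} (hz : z ∈ A.ov a b) : z ∈ H469.ov (A.e a) (A.e b) :=
  ⟨hz.1.1, A.U_sub b hz.2⟩

theorem J_eq_H {a b : Fin A.N} {z : C2} (hz : z ∈ A.ov a b) (p i : Fin 2) :
    H469.J (A.e a) (A.e b) p i z = A.J a b z p i := (H469.jacM_eq hz.1.1 p i).symm

theorem sum_inv {a b : Fin A.N} {z : C2} (hz : z ∈ A.ov a b) (p i : Fin 2) :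
    ∑ k, A.J a b z p k * A.J b a (A.tau a b z) k i = if p = i then 1 else 0 := by
  have h := congrFun (congrFun (FinAt.J_mul_inv hz) p) i
  rwa [Matrix.mul_apply, Matrix.one_apply] at h

/-! ### degree 0 -/

open Classical in
/-- components of a `(1,0)`-form -/
def f0 (A : FinAt X) (c : X → Fin 2 → ℂ) (a : Fin A.N) (z : C2) : Fin 2 → ℂ :=
  if z ∈ A.O a then loc10 (A.e a) c z else 0

theorem f0_of {c : X → Fin 2 → ℂ} {a : Fin A.N} {z : C2} (hz : z ∈ A.O a) :
    f0 A c a z = loc10 (A.e a) c z := if_pos hz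

theorem f0_mem {c : X → Fin 2 → ℂ} (hc : Reg10 ∞ c) : f0 A c ∈ (omBun A).sb0.Sec := by
  refine ⟨fun a => ?_, fun a z hz => if_neg hz, fun a b z hz => ?_⟩
  · exact ((hc _ (A.he a)).mono fun z hz => hz.1).congr fun z hz => f0_of hz
  · rw [f0_of (FinAt.tau_mem_O hz), f0_of hz.1]
    change _ = (A.J b a (A.tau a b z))ᵀ *ᵥ _
    funext i
    simp only [Matrix.mulVec, dotProduct, Matrix.transpose_apply,
      H469.loc10_tr (A.he a) (A.he b) (ov_of hz), J_eq_H hz, smul_eq_mul]
    have h : ∀ x, A.J b a (A.tau a b z) x i * ∑ p, A.J a b z p x *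
        loc10 (A.e b) c (H469.tr (A.e a) (A.e b) z) p = ∑ p, (A.J a b z p x *
          A.J b a (A.tau a b z) x i) * loc10 (A.e b) c (A.tau a b z) p := by
      intro x
      rw [Finset.mul_sum]
      refine Finset.sum_congr rfl fun p _ => ?_
      change _ = (A.J a b z p x * A.J b a (A.tau a b z) x i) *
        loc10 (A.e b) c (H469.tr (A.e a) (A.e b) z) p
      ring
    simp only [h]
    rw [Finset.sum_comm]
    simp only [← Finset.sum_mul, sum_inv hz]
    simp

/-! ### degree 1 -/

open Classical in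
/-- components of a `(1,1)`-form as a `(0,1)`-form with values in `Ω¹` -/
def f1 (A : FinAt X) (g : X → Matrix (Fin 2) (Fin 2) ℂ) (a : Fin A.N) (z : C2) :
    Fin 2 → Fin 2 → ℂ :=
  if z ∈ A.O a then fun j i => -loc11 (A.e a) g z i j else 0

theorem f1_of {g : X → Matrix (Fin 2) (Fin 2) ℂ} {a : Fin A.N} {z : C2} (hz : z ∈ A.O a) :
    f1 A g a z = fun j i => -loc11 (A.e a) g z i j := if_pos hz

theorem f1_mem {g : X → Matrix (Fin 2) (Fin 2) ℂ} (hg : Reg11 ∞ g) :
    f1 A g ∈ (omBun A).sb1.Sec := by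
  refine ⟨fun a => ?_, fun a z hz => if_neg hz, fun a b z hz => ?_⟩
  · have h : ContDiffOn ℝ ∞ (fun z => fun j i => -loc11 (A.e a) g z i j) (A.O a) := by
      rw [contDiffOn_pi]
      intro j
      rw [contDiffOn_pi]
      intro i
      exact ((hg _ (A.he a) i j).mono fun z hz => hz.1).neg
    exact h.congr fun z hz => f1_of hz
  · refine (Bun.compat1_iff hz _ _ _).2 fun j => ?_
    rw [f1_of (FinAt.tau_mem_O hz), f1_of hz.1]
    change _ = (A.J b a (A.tau a b z))ᵀ *ᵥ _
    funext i
    simp only [Finset.sum_apply, Pi.smul_apply, smul_eq_mul, Matrix.mulVec, dotProduct,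
      Matrix.transpose_apply, H469.loc11_tr (A.he a) (A.he b) (ov_of hz), J_eq_H hz]
    have h : ∀ x, A.J b a (A.tau a b z) x i * -∑ p, ∑ q, A.J a b z p x * conj (A.J a b z q j) *
        loc11 (A.e b) g (H469.tr (A.e a) (A.e b) z) p q = ∑ p, (A.J a b z p x *
          A.J b a (A.tau a b z) x i) * ∑ q, -(conj (A.J a b z q j) *
          loc11 (A.e b) g (A.tau a b z) p q) := by
      intro x
      rw [← Finset.sum_neg_distrib, Finset.mul_sum]
      refine Finset.sum_congr rfl fun p _ => ?_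
      rw [← Finset.sum_neg_distrib, Finset.mul_sum, Finset.mul_sum]
      refine Finset.sum_congr rfl fun q _ => ?_
      change _ = (A.J a b z p x * A.J b a (A.tau a b z) x i) * -(conj (A.J a b z q j) *
        loc11 (A.e b) g (H469.tr (A.e a) (A.e b) z) p q)
      ring
    simp only [h]
    rw [Finset.sum_comm]
    simp only [← Finset.sum_mul, sum_inv hz]
    simp

/-! ### degree 2 -/

open Classical in
/-- components of a `(1,2)`-form -/
def f2 (A : FinAt X) (b : X → Fin 2 → ℂ) (a : Fin A.N) (z : C2) : Fin 2 → ℂ :=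
  if z ∈ A.O a then loc12 (A.e a) b z else 0

theorem f2_of {c : X → Fin 2 → ℂ} {a : Fin A.N} {z : C2} (hz : z ∈ A.O a) :
    f2 A c a z = loc12 (A.e a) c z := if_pos hz

theorem f2_mem {c : X → Fin 2 → ℂ} (hc : Reg12 c) : f2 A c ∈ (omBun A).sb2.Sec := by
  refine ⟨fun a => ?_, fun a z hz => if_neg hz, fun a b z hz => ?_⟩
  · exact ((hc _ (A.he a)).mono fun z hz => hz.1).congr fun z hz => f2_of hz
  · refine (Bun.compat2_iff hz _ _ _).2 ?_
    rw [f2_of (FinAt.tau_mem_O hz), f2_of hz.1]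
    change _ = (A.J b a (A.tau a b z))ᵀ *ᵥ _
    have hJM : H469.JM (A.e a) (A.e b) z = A.J a b z := (H469.jacM_eq_JM hz.1.1).symm
    funext i
    simp only [Matrix.mulVec, dotProduct, Matrix.transpose_apply, Pi.smul_apply,
      loc12_tr (A.he a) (A.he b) (ov_of hz), J_eq_H hz, smul_eq_mul, hJM]
    have h : ∀ x, A.J b a (A.tau a b z) x i * ∑ p, A.J a b z p x * conj (A.J a b z).det *
        loc12 (A.e b) c (H469.tr (A.e a) (A.e b) z) p = ∑ p, (A.J a b z p x *
          A.J b a (A.tau a b z) x i) * (conj (A.J a b z).det *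
            loc12 (A.e b) c (A.tau a b z) p) := by
      intro x
      rw [Finset.mul_sum]
      refine Finset.sum_congr rfl fun p _ => ?_
      change _ = (A.J a b z p x * A.J b a (A.tau a b z) x i) * (conj (A.J a b z).det *
        loc12 (A.e b) c (H469.tr (A.e a) (A.e b) z) p)
      ring
    simp only [h]
    rw [Finset.sum_comm]
    simp only [← Finset.sum_mul, sum_inv hz]
    simp

/-! ### the isomorphisms -/

theorem sum_inv' {a b : Fin A.N} {z : C2} (hz : z ∈ A.ov a b) (p i : Fin 2) :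
    ∑ k, A.J b a (A.tau a b z) p k * A.J a b z k i = if p = i then 1 else 0 := by
  have h := congrFun (congrFun (FinAt.J_mul_inv' hz) p) i
  rwa [Matrix.mul_apply, Matrix.one_apply] at h

theorem J_point {a b : Fin A.N} {x : X} (hx : x ∈ A.U a) :
    A.J a b (A.e a x) = jacM (A.e a) (A.e b) x := by
  unfold FinAt.J
  rw [(A.e a).left_inv (A.U_sub a hx)]

theorem tau_point {a b : Fin A.N} {x : X} (hx : x ∈ A.U a) :
    A.tau a b (A.e a x) = A.e b x := by
  unfold FinAt.tau
  rw [(A.e a).left_inv (A.U_sub a hx)]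

theorem Jt_E {a b : Fin A.N} {z : C2} (hz : z ∈ A.ov a b) (w : Fin 2 → ℂ) (i : Fin 2) :
    ∑ p, A.J a b z p i * ((A.J b a (A.tau a b z))ᵀ *ᵥ w) p = w i := by
  simp only [Matrix.mulVec, dotProduct, Matrix.transpose_apply, Finset.mul_sum]
  rw [Finset.sum_comm]
  have h : ∀ k, ∑ p, A.J a b z p i * (A.J b a (A.tau a b z) k p * w k) =
      (∑ p, A.J b a (A.tau a b z) k p * A.J a b z p i) * w k := by
    intro k
    rw [Finset.sum_mul]
    exact Finset.sum_congr rfl fun p _ => by ring
  simp only [h, sum_inv' hz]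
  simp

theorem f0_surj {v : Fin A.N → C2 → Fin 2 → ℂ} (hv : v ∈ (omBun A).sb0.Sec) :
    ∃ c : X → Fin 2 → ℂ, Reg10 ∞ c ∧ f0 A c = v := by
  obtain ⟨c, hc, h⟩ := glue10 (cover A) v hv.1 (fun a b x hx hx' i => by
    have hz := FinAt.mem_ov hx hx'
    have h1 := hv.2.2 a b _ hz
    rw [tau_point hx] at h1
    have h2 := Jt_E hz (v a (A.e a x)) i
    rw [tau_point hx] at h2
    rw [← h2, J_point hx, h1]
    change _ = ∑ p, _ * ((A.J b a (A.tau a b (A.e a x)))ᵀ *ᵥ _) p
    rw [tau_point hx])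
  refine ⟨c, hc, ?_⟩
  funext a z
  by_cases hz : z ∈ A.O a
  · rw [f0_of hz]
    exact h a z hz
  · rw [hv.2.1 a z hz]
    exact if_neg hz

theorem f1_surj {v : Fin A.N → C2 → Fin 2 → Fin 2 → ℂ} (hv : v ∈ (omBun A).sb1.Sec) :
    ∃ g : X → Matrix (Fin 2) (Fin 2) ℂ, Reg11 ∞ g ∧ f1 A g = v := by
  obtain ⟨g, hg, h⟩ := glue11 (n := ∞) (cover A) (fun a z i j => -v a z j i)
    (fun a i j => ((contDiffOn_pi.1 ((contDiffOn_pi.1 (hv.1 a)) j)) i).neg)
    (fun a b x hx hx' i j => by
      have hz := FinAt.mem_ov hx hx'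
      have h1 := (Bun.compat1_iff hz _ _ _).1 (hv.2.2 a b _ hz) j
      have h2 := Jt_E hz (v a (A.e a x) j) i
      have h3 : (A.J b a (A.tau a b (A.e a x)))ᵀ *ᵥ v a (A.e a x) j =
          ∑ p, conj (A.J a b (A.e a x) p j) • v b (A.tau a b (A.e a x)) p := h1.symm
      rw [h3, tau_point hx, J_point hx] at h2
      simp only [Finset.sum_apply, Pi.smul_apply, smul_eq_mul] at h2
      rw [← h2, ← Finset.sum_neg_distrib]
      refine Finset.sum_congr rfl fun p _ => ?_
      rw [Finset.mul_sum, ← Finset.sum_neg_distrib]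
      refine Finset.sum_congr rfl fun q _ => ?_
      ring)
  refine ⟨g, hg, ?_⟩
  funext a z
  by_cases hz : z ∈ A.O a
  · rw [f1_of hz]
    funext j i
    rw [h a z hz i j, neg_neg]
  · rw [hv.2.1 a z hz]
    exact if_neg hz

theorem f2_surj {v : Fin A.N → C2 → Fin 2 → ℂ} (hv : v ∈ (omBun A).sb2.Sec) :
    ∃ c : X → Fin 2 → ℂ, Reg12 c ∧ f2 A c = v := by
  obtain ⟨c, hc, h⟩ := glue12 (cover A) v hv.1 (fun a b x hx hx' i => by
    have hz := FinAt.mem_ov hx hx'
    have h1 := (Bun.compat2_iff hz _ _ _).1 (hv.2.2 a b _ hz)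
    have h2 := Jt_E hz (v a (A.e a x)) i
    have h3 : (A.J b a (A.tau a b (A.e a x)))ᵀ *ᵥ v a (A.e a x) =
        conj (A.J a b (A.e a x)).det • v b (A.tau a b (A.e a x)) := h1.symm
    rw [h3, tau_point hx, J_point hx] at h2
    rw [← h2]
    refine Finset.sum_congr rfl fun p _ => ?_
    rw [Pi.smul_apply, smul_eq_mul]
    ring)
  refine ⟨c, hc, ?_⟩
  funext a z
  by_cases hz : z ∈ A.O a
  · rw [f2_of hz]
    exact h a z hz
  · rw [hv.2.1 a z hz]
    exact if_neg hz

/-- `Ω^{1,0} ≃ A^{0,0}(Ω¹)` -/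
def F0 (A : FinAt X) : S10 X ≃ₗ[ℂ] (omBun A).sb0.Sec :=
  LinearEquiv.ofBijective
    { toFun := fun c => ⟨f0 A c.1, f0_mem c.2⟩
      map_add' := fun c c' => by
        apply Subtype.ext
        funext a z
        by_cases hz : z ∈ A.O a
        · simp only [Submodule.coe_add, Pi.add_apply, f0_of hz]
          funext i
          exact H469.loc10_add (A.e a) z _ _ i
        · simp [f0, hz]
      map_smul' := fun t c => by
        apply Subtype.ext
        funext a z
        by_cases hz : z ∈ A.O a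
        · simp only [Submodule.coe_smul, Pi.smul_apply, f0_of hz, RingHom.id_apply]
          funext i
          exact H469.loc10_smul (A.e a) z t _ i
        · simp [f0, hz] }
    ⟨fun c c' h => by
      apply Subtype.ext
      refine ext10 (cover A) fun a z hz => ?_
      have h2 := congrFun (congrFun (congrArg Subtype.val h) a) z
      change f0 A c.1 a z = f0 A c'.1 a z at h2
      rwa [f0_of hz, f0_of hz] at h2,
    fun v => by
      obtain ⟨c, hc, h⟩ := f0_surj v.2
      exact ⟨⟨c, hc⟩, Subtype.ext h⟩⟩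

/-- `Ω^{1,1} ≃ A^{0,1}(Ω¹)` -/
def F1 (A : FinAt X) : S11 X ≃ₗ[ℂ] (omBun A).sb1.Sec :=
  LinearEquiv.ofBijective
    { toFun := fun c => ⟨f1 A c.1, f1_mem c.2⟩
      map_add' := fun c c' => by
        apply Subtype.ext
        funext a z
        by_cases hz : z ∈ A.O a
        · simp only [Submodule.coe_add, Pi.add_apply, f1_of hz]
          funext j i
          have := H469.loc11_add (A.e a) z c.1 c'.1 i j
          simp only [Pi.add_apply, this]
          ring
        · simp [f1, hz]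
      map_smul' := fun t c => by
        apply Subtype.ext
        funext a z
        by_cases hz : z ∈ A.O a
        · simp only [Submodule.coe_smul, Pi.smul_apply, f1_of hz, RingHom.id_apply]
          funext j i
          have := H469.loc11_smul (A.e a) z t c.1 i j
          simp only [Pi.smul_apply, this, smul_eq_mul]
          ring
        · simp [f1, hz] }
    ⟨fun c c' h => by
      apply Subtype.ext
      refine ext11 (cover A) fun a z hz i j => ?_
      have h2 := congrFun (congrFun (congrArg Subtype.val h) a) z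
      change f1 A c.1 a z = f1 A c'.1 a z at h2
      rw [f1_of hz, f1_of hz] at h2
      exact neg_injective (congrFun (congrFun h2 j) i),
    fun v => by
      obtain ⟨c, hc, h⟩ := f1_surj v.2
      exact ⟨⟨c, hc⟩, Subtype.ext h⟩⟩

/-- `Ω^{1,2} ≃ A^{0,2}(Ω¹)` -/
def F2 (A : FinAt X) : S12 X ≃ₗ[ℂ] (omBun A).sb2.Sec :=
  LinearEquiv.ofBijective
    { toFun := fun c => ⟨f2 A c.1, f2_mem (reg12_iff.2 c.2)⟩
      map_add' := fun c c' => by
        apply Subtype.ext
        funext a z
        by_cases hz : z ∈ A.O a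
        · simp only [Submodule.coe_add, Pi.add_apply, f2_of hz]
          funext i
          simp only [loc12_eq, Pi.add_apply, Matrix.mulVec_add]
        · simp [f2, hz]
      map_smul' := fun t c => by
        apply Subtype.ext
        funext a z
        by_cases hz : z ∈ A.O a
        · simp only [Submodule.coe_smul, Pi.smul_apply, f2_of hz, RingHom.id_apply]
          funext i
          simp only [loc12_eq, Pi.smul_apply, Matrix.mulVec_smul]
        · simp [f2, hz] }
    ⟨fun c c' h => by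
      apply Subtype.ext
      refine ext12 (cover A) fun a z hz => ?_
      have h2 := congrFun (congrFun (congrArg Subtype.val h) a) z
      change f2 A c.1 a z = f2 A c'.1 a z at h2
      rwa [f2_of hz, f2_of hz] at h2,
    fun v => by
      obtain ⟨c, hc, h⟩ := f2_surj v.2
      exact ⟨⟨c, reg12_iff.1 hc⟩, Subtype.ext h⟩⟩

theorem F0_apply (c : S10 X) : ((F0 A c : (omBun A).sb0.Sec) : Fin A.N → C2 → Fin 2 → ℂ) =
    f0 A c.1 := rfl

theorem F1_apply (c : S11 X) :
    ((F1 A c : (omBun A).sb1.Sec) : Fin A.N → C2 → Fin 2 → Fin 2 → ℂ) = f1 A c.1 := rfl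

theorem F2_apply (c : S12 X) : ((F2 A c : (omBun A).sb2.Sec) : Fin A.N → C2 → Fin 2 → ℂ) =
    f2 A c.1 := rfl

theorem one_le_inf : (1 : WithTop ℕ∞) ≤ ∞ := by
  exact_mod_cast le_top

/-- the isomorphisms commute with `∂̄` -/
theorem F1_d10 (c : S10 X) : F1 A (d10 X c) = (omBun A).d0 (F0 A c) := by
  apply Subtype.ext
  funext a z
  change f1 A (dbar10 c.1) a z = Bun.d0f (f0 A c.1) a z
  by_cases hz : z ∈ A.O a
  · rw [f1_of hz, Bun.d0f, if_pos hz]
    funext j i
    rw [H469.dbar10_law (H469.r10mono c.2 H469.one_le_infty) (A.he a) hz.1, neg_neg]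
    have h1 : (f0 A c.1 a) =ᶠ[𝓝 z] loc10 (A.e a) c.1 := by
      filter_upwards [(A.isOpen_O a).mem_nhds hz] with y hy
      exact f0_of hy
    rw [FL.dzb_congr h1]
    have h2 : DifferentiableAt ℝ (loc10 (A.e a) c.1) z :=
      ((c.2 _ (A.he a)).contDiffAt ((A.e a).open_target.mem_nhds hz.1)).differentiableAt (by simp)
    exact Bun.dzb_pi h2 j i
  · rw [Bun.d0f, if_neg hz]
    exact if_neg hz

/-- the isomorphisms commute with `∂̄` -/
theorem F2_d11 (g : S11 X) : F2 A (d11 X g) = (omBun A).d1 (F1 A g) := by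
  apply Subtype.ext
  funext a z
  change f2 A (H469.dbar11 g.1) a z = Bun.d1f (f1 A g.1) a z
  by_cases hz : z ∈ A.O a
  · rw [f2_of hz, Bun.d1f, if_pos hz]
    funext i
    rw [← rr_dbar11, dbar11_law (H469.r11mono g.2 H469.one_le_infty) (A.he a) hz.1]
    have h1 : ∀ j, (fun y => f1 A g.1 a y j) =ᶠ[𝓝 z] fun y i => -loc11 (A.e a) g.1 y i j := by
      intro j
      filter_upwards [(A.isOpen_O a).mem_nhds hz] with y hy
      rw [f1_of hy]
    rw [FL.dzb_congr (h1 1), FL.dzb_congr (h1 0)]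
    have h2 : ∀ j, DifferentiableAt ℝ (fun y i => -loc11 (A.e a) g.1 y i j) z := by
      intro j
      rw [differentiableAt_pi]
      intro i
      exact (((g.2 _ (A.he a) i j).contDiffAt
        ((A.e a).open_target.mem_nhds hz.1)).differentiableAt (by simp)).neg
    rw [Pi.sub_apply, ← Bun.dzb_pi (h2 1), ← Bun.dzb_pi (h2 0), FL.dzb_neg, FL.dzb_neg]
    ring
  · rw [Bun.d1f, if_neg hz]
    exact if_neg hz

variable (A)

theorem h10_eq' : h10 X = (omBun A).h0 := by
  rw [h10_eq]
  exact hh0_congr _ _ (F0 A) (F1 A) F1_d10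

theorem h11_eq' : h11 X = (omBun A).h1 := by
  rw [h11_eq]
  exact hh1_congr _ _ _ _ (F0 A) (F1 A) (F2 A) F1_d10 F2_d11

theorem h12_eq' : h12 X = (omBun A).h2 := by
  rw [h12_eq]
  exact hh2_congr _ _ (F1 A) (F2 A) F2_d11

/-- **`χ(X, Ω¹)` of `H221/Out.lean` is the Euler characteristic of the bundle `Ω¹`.** -/
theorem chiOm_eq : chiOm X = (omBun A).chi := by
  rw [chiOm, Bun.chi, h10_eq' A, h11_eq' A, h12_eq' A]

end Vale.Agent.P267.H983
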