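import Vale.Agent.P267.H983.DictOm
import Vale.Agent.P267.H983.Dens

/-! # P267 / H983: the Atiyah cocycle of `Ω¹` is `-alᵀ`, `al = J⁻¹ ∂J` -/

set_option linter.unusedSectionVars false

open scoped Manifold ContDiff ComplexConjugate Topology Matrix
open Set

noncomputable section

namespace Vale.Agent.P267.H983

open Vale.Agent.P267.FL
open Vale.Agent.P267.RR

variable {X : Type*} [TopologicalSpace X] [ChartedSpace C2 X] [IsManifold 𝓘(ℂ, C2) ω X]

/-- entrywise `∂_k` of a matrix valued function -/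
def dzM {m n : Type*} (k : Fin 2) (M : C2 → Matrix m n ℂ) (z : C2) : Matrix m n ℂ :=
  Matrix.of fun p q => dz k (fun y => M y p q) z

theorem dzM_mul {m : Type*} [Fintype m] {k : Fin 2} {M N : C2 → Matrix m m ℂ} {z : C2}
    (hM : ∀ p q, DifferentiableAt ℝ (fun y => M y p q) z)
    (hN : ∀ p q, DifferentiableAt ℝ (fun y => N y p q) z) :
    dzM k (fun y => M y * N y) z = dzM k M z * N z + M z * dzM k N z := by
  ext p q
  simp only [dzM, Matrix.of_apply, Matrix.add_apply, Matrix.mul_apply]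
  rw [FL.dz_sum (f := fun j y => M y p j * N y j q) Finset.univ
    (fun j _ => (hM p j).mul (hN j q)), ← Finset.sum_add_distrib]
  refine Finset.sum_congr rfl fun j _ => ?_
  rw [FL.dz_mul (hM p j) (hN j q), add_comm]

theorem dzM_congr {m n : Type*} {k : Fin 2} {M N : C2 → Matrix m n ℂ} {z : C2}
    (h : ∀ᶠ y in 𝓝 z, M y = N y) : dzM k M z = dzM k N z := by
  ext p q
  simp only [dzM, Matrix.of_apply]
  exact FL.dz_congr (by filter_upwards [h] with y hy; rw [hy]) k

/-- `al = J⁻¹ ∂J` -/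
def alA (A : FinAt X) (a b : Fin A.N) (z : C2) (k : Fin 2) : Matrix (Fin 2) (Fin 2) ℂ :=
  (A.J a b z)⁻¹ * dzM k (A.J a b) z

/-- `ep = E⁻¹ ∂E` -/
def epB {A : FinAt X} {r : ℕ} (B : Bun A r) (a b : Fin A.N) (z : C2) (k : Fin 2) :
    Matrix (Fin r) (Fin r) ℂ :=
  (B.E a b z)⁻¹ * dzM k (B.E a b) z

theorem J_inv_eq {A : FinAt X} {a b : Fin A.N} {z : C2} (hz : z ∈ A.ov a b) :
    (A.J a b z)⁻¹ = A.J b a (A.tau a b z) :=
  Matrix.inv_eq_right_inv (FinAt.J_mul_inv hz)

/-- the Atiyah cocycle of `Ω¹` -/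
theorem epB_omBun {A : FinAt X} {a b : Fin A.N} {z : C2} (hz : z ∈ A.ov a b) (k : Fin 2) :
    epB (omBun A) a b z k = -(alA A a b z k)ᵀ := by
  set G : C2 → Matrix (Fin 2) (Fin 2) ℂ := fun y => A.J b a (A.tau a b y) with hG
  have hGd : ∀ p q, DifferentiableAt ℝ (fun y => G y p q) z := fun p q =>
    (FinAt.jac_inv_analyticAt hz p q).differentiableAt.restrictScalars ℝ
  have hJd : ∀ p q, DifferentiableAt ℝ (fun y => A.J a b y p q) z := fun p q =>
    (FinAt.J_analyticAt hz p q).differentiableAt.restrictScalars ℝ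
  have h1 : dzM k (fun y => G y * A.J a b y) z = 0 := by
    have h2 : ∀ᶠ y in 𝓝 z, G y * A.J a b y = 1 := by
      filter_upwards [(A.isOpen_ov a b).mem_nhds hz] with y hy
      exact FinAt.J_mul_inv' hy
    rw [dzM_congr h2]
    ext p q
    simp only [dzM, Matrix.of_apply, Matrix.zero_apply]
    simp [dz]
  rw [dzM_mul hGd hJd] at h1
  have h3 : dzM k G z = -(alA A a b z k) * G z := by
    have h4 := congrArg (· * G z) h1
    simp only [add_mul, zero_mul, Matrix.mul_assoc] at h4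
    rw [show A.J a b z * G z = 1 from FinAt.J_mul_inv hz, Matrix.mul_one] at h4
    rw [alA, J_inv_eq hz, neg_mul, Matrix.mul_assoc]
    exact eq_neg_of_add_eq_zero_left h4
  have hE : dzM k ((omBun A).E a b) z = (dzM k G z)ᵀ := rfl
  have hEz : (omBun A).E a b z = (G z)ᵀ := rfl
  have hinv : ((G z)ᵀ)⁻¹ * (G z)ᵀ = 1 := by
    refine Matrix.nonsing_inv_mul _ ?_
    rw [Matrix.det_transpose]
    exact Matrix.isUnit_det_of_right_inverse (FinAt.J_mul_inv' hz)
  rw [epB, hE, hEz, h3, Matrix.transpose_mul, ← Matrix.mul_assoc, hinv, one_mul,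
    Matrix.transpose_neg]

/-- `10` times the density of `𝒪` plus the density of `Ω¹` -/
theorem noether_density' {A : FinAt X} {a b c : Fin A.N} {z : C2} (hb : z ∈ A.ov a b)
    (hc : z ∈ A.ov a c) :
    10 * Rabc 1 (alA A a b z) (alA A a c z) (0 : Fin 2 → Matrix (Fin 1) (Fin 1) ℂ) 0 +
      Rabc 2 (alA A a b z) (alA A a c z) (epB (omBun A) a b z) (epB (omBun A) a c z) =
        w2 (trf (alA A a b z)) (trf (alA A a c z)) := by
  have h1 : epB (omBun A) a b z = fun j => -(alA A a b z j)ᵀ := funext fun k => epB_omBun hb k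
  have h2 : epB (omBun A) a c z = fun j => -(alA A a c z j)ᵀ := funext fun k => epB_omBun hc k
  rw [h1, h2]
  exact noether_density _ _

end Vale.Agent.P267.H983
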