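import Vale.Agent.P267.H983.SerMain
import Vale.Agent.P267.H221.YSp
import Vale.Agent.P267.H221.KW
import Vale.Agent.P267.H285.Cplx

/-!
# P267 / H983, package SERRE-BUN: `FR1`, `FR2` from the Hodge data of helper285

`CplxOf B C`: the parametrix complex `C` is the one of the bundle `B`.
-/

set_option linter.unusedSectionVars false

open scoped Manifold ContDiff ComplexConjugate Matrix
open MeasureTheory Set Filter Topology

noncomputable section

namespace Vale.Agent.P267.H983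

open Vale.Agent.P267.FL Vale.Agent.P267.RR Vale.Agent.P267.H285

section abs

variable {𝕜 : Type*} [RCLike 𝕜] {A0 A1 A2 X0 X1 X2 : Type*}
    [AddCommGroup A0] [Module 𝕜 A0] [AddCommGroup A1] [Module 𝕜 A1]
    [AddCommGroup A2] [Module 𝕜 A2]
    [NormedAddCommGroup X0] [NormedSpace 𝕜 X0] [NormedAddCommGroup X1] [NormedSpace 𝕜 X1]
    [NormedAddCommGroup X2] [NormedSpace 𝕜 X2] {C : PComplex 𝕜 A0 A1 A2 X0 X1 X2}

/-- the exact elements in degree 2 are detected by continuous functionals -/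
theorem exact2_of (h : HodgeData C) (b : A2)
    (hb : ∀ φ : X2 →L[𝕜] 𝕜, (∀ w, φ (C.i2 (C.d1 w)) = 0) → φ (C.i2 b) = 0) :
    ∃ w, C.d1 w = b := by
  have h1 : h.H2 (C.i2 b) = 0 := by
    rw [NormedSpace.eq_zero_iff_forall_dual_eq_zero 𝕜]
    intro g
    refine hb (g.comp h.H2) fun w => ?_
    rw [ContinuousLinearMap.comp_apply, ← h.iL2, h.Ld1, map_zero, map_zero]
  have h2 : h.L2 (C.i2 b) = 0 := by
    apply C.reg2.inj
    rw [h.iL2, h1, map_zero]
  refine ⟨h.G1A b, ?_⟩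
  rw [h.eq2, h2, sub_zero]

/-- the exact elements in degree 1 are detected by continuous functionals -/
theorem exact1_of (h : HodgeData C) (w : A1) (hw : C.d1 w = 0)
    (hb : ∀ φ : X1 →L[𝕜] 𝕜, (∀ u, φ (C.i1 (C.d0 u)) = 0) → φ (C.i1 w) = 0) :
    ∃ u, C.d0 u = w := by
  have h1 : h.H1 (C.i1 w) = 0 := by
    rw [NormedSpace.eq_zero_iff_forall_dual_eq_zero 𝕜]
    intro g
    refine hb (g.comp h.H1) fun u => ?_
    rw [ContinuousLinearMap.comp_apply, ← h.iL1, h.Ld0, map_zero, map_zero]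
  have h2 : h.L1 (C.i1 w) = 0 := by
    apply C.reg1.inj
    rw [h.iL1, h1, map_zero]
  refine ⟨h.G0A w, ?_⟩
  have h3 := h.eq1 w
  rw [hw, map_zero, add_zero, h2, sub_zero] at h3
  exact h3

end abs

variable {X : Type*} [TopologicalSpace X] [ChartedSpace C2 X] {A : FinAt X}

section bdd

variable [CompactSpace X] {V : Type} [NormedAddCommGroup V] [NormedSpace ℂ V] {S : SB A V}

/-- a continuous functional on the Banach space of continuous sections is bounded -/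
theorem bdd_of_clm (ψ : S.Bn →L[ℂ] ℂ) : Bdd (S := S) ((ψ : S.Bn →ₗ[ℂ] ℂ).comp S.i) := by
  by_cases hY : Nonempty A.Y
  · refine ⟨‖ψ‖, fun u M hM => ?_⟩
    have h1 : ‖S.i u‖ ≤ M := by
      change ‖S.res u‖ ≤ M
      rw [ContinuousMap.norm_le_of_nonempty]
      intro y
      exact hM y.1.1 y.1.2 y.2
    exact (ψ.le_opNorm _).trans (mul_le_mul_of_nonneg_left h1 (norm_nonneg _))
  · refine ⟨0, fun u M _ => ?_⟩
    have h1 : S.i u = 0 := by
      apply Subtype.ext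
      ext y
      exact absurd ⟨y⟩ hY
    change ‖ψ (S.i u)‖ ≤ 0 * M
    rw [h1, map_zero, norm_zero, zero_mul]

end bdd

variable [IsManifold 𝓘(ℂ, C2) ω X] [CompactSpace X] {r : ℕ} {B : Bun A r}

/-- the parametrix complex of a bundle -/
abbrev BCplx (B : Bun A r) : Type _ :=
  PComplex ℂ B.sb0.Sec B.sb1.Sec B.sb2.Sec B.sb0.Bn B.sb1.Bn B.sb2.Bn

/-- `C` is the complex of the bundle `B` -/
structure CplxOf (B : Bun A r) (C : BCplx B) : Prop where
  i0 : ∀ u, C.i0 u = B.sb0.i u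
  i1 : ∀ u, C.i1 u = B.sb1.i u
  i2 : ∀ u, C.i2 u = B.sb2.i u
  d0 : ∀ u, C.d0 u = B.d0 u
  d1 : ∀ u, C.d1 u = B.d1 u

/-- `FR2` -/
theorem fr2_of (C : BCplx B) (hi2 : ∀ b, C.i2 b = B.sb2.i b) (hd1 : ∀ w, C.d1 w = B.d1 w) :
    FR2 B := by
  obtain ⟨h⟩ := C.exists_hodge
  intro b hb
  obtain ⟨w, hw⟩ := exact2_of h b fun φ hφ => by
    have h1 := hb _ (bdd_of_clm φ) fun w => by
      have := hφ w
      rw [hd1, hi2] at this
      exact this
    rw [hi2]
    exact h1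
  exact ⟨w, by rw [← hd1, hw]⟩

/-- `FR1` -/
theorem fr1_of (C : BCplx B) (hi1 : ∀ b, C.i1 b = B.sb1.i b) (hd0 : ∀ u, C.d0 u = B.d0 u)
    (hd1 : ∀ w, C.d1 w = B.d1 w) : FR1 B := by
  obtain ⟨h⟩ := C.exists_hodge
  intro w hw hb
  obtain ⟨u, hu⟩ := exact1_of h w (by rw [hd1, hw]) fun φ hφ => by
    have h1 := hb _ (bdd_of_clm φ) fun u => by
      have := hφ u
      rw [hd0, hi1] at this
      exact this
    rw [hi1]
    exact h1
  exact ⟨u, by rw [← hd0, hu]⟩

end Vale.Agent.P267.H983
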