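import Vale.Agent.P267.H469.Laws

/-! # P267 / H983: gluing tensors given in the charts of a finite (or infinite) family

`ρ` is a representation of the Jacobian matrices (`ρ (M * N) = ρ N * ρ M`): the components in the
chart `e` of the tensor `c` (given by its components in the preferred charts) are
`ρ (jac e x) *ᵥ c x`. A compatible family of local smooth components comes from a unique tensor. -/

set_option linter.unusedSectionVars false

open scoped Manifold ContDiff ComplexConjugate Topology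
open Set

noncomputable section

namespace Vale.Agent.P267.H983

open Vale.Agent.P267.FL
open Vale.Agent.P267.H469 (J JM ov tr isOpen_ov ov_nhds)

variable {X : Type*} [TopologicalSpace X] [ChartedSpace C2 X]

/-- a family of charts of the atlas with open subsets of their domains which cover `X` -/
structure Cover {I : Type*} (e : I → Ch X) (U : I → Set X) : Prop where
  atl : ∀ a, e a ∈ atlas C2 X
  op : ∀ a, IsOpen (U a)
  sub : ∀ a, U a ⊆ (e a).source
  cov : ∀ x, ∃ a, x ∈ U a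

/-- the image of `U` in the chart `e` -/
def OO (e : Ch X) (U : Set X) : Set C2 := e.target ∩ e.symm ⁻¹' U

theorem isOpen_OO {e : Ch X} {U : Set X} (hU : IsOpen U) : IsOpen (OO e U) :=
  e.isOpen_inter_preimage_symm hU

theorem mem_OO {e : Ch X} {U : Set X} {x : X} (hx : x ∈ U) (hs : U ⊆ e.source) :
    e x ∈ OO e U := ⟨e.map_source (hs hx), by
  change e.symm (e x) ∈ U
  rwa [e.left_inv (hs hx)]⟩

theorem mem_ov {e e' : Ch X} {x : X} (hx : x ∈ e.source) (hx' : x ∈ e'.source) :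
    e x ∈ ov e e' := ⟨e.map_source hx, by
  change e.symm (e x) ∈ e'.source
  rwa [e.left_inv hx]⟩

variable [IsManifold 𝓘(ℂ, C2) ω X]

/-- smoothness of the components in one chart around every point suffices -/
theorem contDiffAt_change {ι : Type*} [Fintype ι] {n : WithTop ℕ∞}
    (ρ : Matrix (Fin 2) (Fin 2) ℂ → Matrix ι ι ℂ)
    (hmul : ∀ M N, ρ (M * N) = ρ N * ρ M)
    (hsm : ∀ k l, ContDiff ℝ n fun M : Fin 2 → Fin 2 → ℂ => ρ (Matrix.of M) k l)
    (c : X → ι → ℂ) {e e' : Ch X} (he : e ∈ atlas C2 X) (he' : e' ∈ atlas C2 X) {w : C2}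
    (hw : w ∈ ov e e')
    (h : ∀ k, ContDiffAt ℝ n (fun z => (ρ (jac e' (e'.symm z))).mulVec (c (e'.symm z)) k)
      (tr e e' w)) (k : ι) :
    ContDiffAt ℝ n (fun z => (ρ (jac e (e.symm z))).mulVec (c (e.symm z)) k) w := by
  have h1 : (fun z => (ρ (jac e (e.symm z))).mulVec (c (e.symm z)) k) =ᶠ[𝓝 w]
      fun z => ∑ l, ρ (JM e e' z) k l *
        (ρ (jac e' (e'.symm (tr e e' z)))).mulVec (c (e'.symm (tr e e' z))) l := by
    filter_upwards [ov_nhds hw] with z hz
    rw [H469.jac_trans he he' hz, hmul, ← Matrix.mulVec_mulVec, H469.symm_tr hz]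
    rfl
  refine ContDiffAt.congr_of_eventuallyEq ?_ h1
  refine ContDiffAt.sum fun l _ => ContDiffAt.mul ?_ ?_
  · have h2 : (fun z => ρ (JM e e' z) k l) =
        (fun M : Fin 2 → Fin 2 → ℂ => ρ (Matrix.of M) k l) ∘ fun z p i => J e e' p i z := rfl
    rw [h2]
    refine (hsm k l).contDiffAt.comp w ?_
    rw [contDiffAt_pi]
    intro p
    rw [contDiffAt_pi]
    intro i
    exact (H469.J_real he he' p i).contDiffAt (ov_nhds hw)
  · have h3 := (H469.tr_real he he' (n := n)).contDiffAt (ov_nhds hw)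
    exact (h l).comp w h3

theorem jac_det_unit {I : Type*} {e : I → Ch X} {U : I → Set X} (H : Cover e U) (a : I) {x : X}
    (hx : x ∈ U a) : IsUnit (jac (e a) x).det := by
  have hxs := H.sub a hx
  have hw : (e a) x ∈ ov (e a) (chartAt C2 x) := mem_ov hxs (mem_chart_source C2 x)
  have h := H469.det_JM_ne (H.atl a) (chart_mem_atlas C2 x) hw
  rw [← H469.jacM_eq_JM hw.1, (e a).left_inv hxs] at h
  exact isUnit_iff_ne_zero.2 h

/-- a tensor is determined by its components in the charts of the family -/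
theorem ext_rho {ι : Type*} [Fintype ι] [DecidableEq ι]
    (ρ : Matrix (Fin 2) (Fin 2) ℂ → Matrix ι ι ℂ) (h1 : ρ 1 = 1)
    (hmul : ∀ M N, ρ (M * N) = ρ N * ρ M)
    {I : Type*} {e : I → Ch X} {U : I → Set X} (H : Cover e U) {c c' : X → ι → ℂ}
    (h : ∀ a, ∀ x ∈ U a, (ρ (jac (e a) x)).mulVec (c x) = (ρ (jac (e a) x)).mulVec (c' x)) :
    c = c' := by
  funext x
  obtain ⟨a, ha⟩ := H.cov x
  have h2 := congrArg (ρ ((jac (e a) x)⁻¹)).mulVec (h a x ha)
  rwa [Matrix.mulVec_mulVec, Matrix.mulVec_mulVec, ← hmul,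
    Matrix.mul_nonsing_inv _ (jac_det_unit H a ha), h1, Matrix.one_mulVec,
    Matrix.one_mulVec] at h2

/-- **Gluing.** -/
theorem glue {ι : Type*} [Fintype ι] [DecidableEq ι] {n : WithTop ℕ∞}
    (ρ : Matrix (Fin 2) (Fin 2) ℂ → Matrix ι ι ℂ)
    (hmul : ∀ M N, ρ (M * N) = ρ N * ρ M)
    (hsm : ∀ k l, ContDiff ℝ n fun M : Fin 2 → Fin 2 → ℂ => ρ (Matrix.of M) k l)
    {I : Type*} {e : I → Ch X} {U : I → Set X} (H : Cover e U) (u : I → C2 → ι → ℂ)
    (hu : ∀ a k, ContDiffOn ℝ n (fun z => u a z k) (OO (e a) (U a)))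
    (hc : ∀ a b, ∀ x ∈ U a, x ∈ U b →
      u a (e a x) = (ρ (jacM (e a) (e b) x)).mulVec (u b (e b x))) :
    ∃ c : X → ι → ℂ, (∀ a, ∀ x ∈ U a, (ρ (jac (e a) x)).mulVec (c x) = u a (e a x)) ∧
      ∀ e' ∈ atlas C2 X, ∀ k,
        ContDiffOn ℝ n (fun z => (ρ (jac e' (e'.symm z))).mulVec (c (e'.symm z)) k) e'.target := by
  choose a0 ha0 using H.cov
  have hdet : ∀ a, ∀ x ∈ U a, IsUnit (jac (e a) x).det := by
    intro a x hx
    have hxs := H.sub a hx
    have hw : (e a) x ∈ ov (e a) (chartAt C2 x) := mem_ov hxs (mem_chart_source C2 x)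
    have h := H469.det_JM_ne (H.atl a) (chart_mem_atlas C2 x) hw
    rw [← H469.jacM_eq_JM hw.1, (e a).left_inv hxs] at h
    exact isUnit_iff_ne_zero.2 h
  let c : X → ι → ℂ := fun x => (ρ ((jac (e (a0 x)) x)⁻¹)).mulVec (u (a0 x) (e (a0 x) x))
  have key : ∀ a, ∀ x ∈ U a, (ρ (jac (e a) x)).mulVec (c x) = u a (e a x) := by
    intro a x hx
    have hxs := H.sub a hx
    have hw : (e a) x ∈ ov (e a) (e (a0 x)) := mem_ov hxs (H.sub _ (ha0 x))
    have h2 := H469.jac_trans (H.atl a) (H.atl (a0 x)) hw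
    rw [(e a).left_inv hxs, ← H469.jacM_eq_JM hw.1, (e a).left_inv hxs] at h2
    change (ρ (jac (e a) x)).mulVec
      ((ρ ((jac (e (a0 x)) x)⁻¹)).mulVec (u (a0 x) (e (a0 x) x))) = _
    rw [Matrix.mulVec_mulVec, ← hmul, h2, ← Matrix.mul_assoc,
      Matrix.nonsing_inv_mul _ (hdet _ x (ha0 x)), one_mul]
    exact (hc a (a0 x) x hx (ha0 x)).symm
  refine ⟨c, key, ?_⟩
  intro e' he' k z hz
  obtain ⟨a, ha⟩ := H.cov (e'.symm z)
  have hw : z ∈ ov e' (e a) := ⟨hz, H.sub a ha⟩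
  refine (contDiffAt_change ρ hmul hsm c he' (H.atl a) hw ?_ k).contDiffWithinAt
  intro l
  have hmem : tr e' (e a) z ∈ OO (e a) (U a) := mem_OO ha (H.sub a)
  have hev : (fun v => (ρ (jac (e a) ((e a).symm v))).mulVec (c ((e a).symm v)) l)
      =ᶠ[𝓝 (tr e' (e a) z)] fun v => u a v l := by
    filter_upwards [(isOpen_OO (H.op a)).mem_nhds hmem] with v hv
    rw [key a _ hv.2, (e a).right_inv hv.1]
  exact ((hu a l).contDiffAt ((isOpen_OO (H.op a)).mem_nhds hmem)).congr_of_eventuallyEq hev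

end Vale.Agent.P267.H983
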