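import Vale.Agent.P267.H983.SerSm

/-!
# P267 / H983, package SERRE-BUN: the pairings of `B`-valued and `K ⊗ B^*`-valued forms

`SD B B' G`: the constant matrix `G` identifies `B'` with `K ⊗ B^*`:
`det J • (Eᵀ G E') = G`.  Then `u ↦ u ⬝ᵥ G *ᵥ v` pairs `(0,q)`-forms with values in `B` and
`(0,2-q)`-forms with values in `B'` to densities.
-/

set_option linter.unusedSectionVars false

open scoped Manifold ContDiff ComplexConjugate Matrix
open MeasureTheory Set Filter Topology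

noncomputable section

namespace Vale.Agent.P267.H983

open Vale.Agent.P267.FL Vale.Agent.P267.RR Vale.Agent.P267.H462

/-! ### linear algebra -/

section lin

variable {V : Type} [NormedAddCommGroup V] [NormedSpace ℂ V] [FiniteDimensional ℂ V]
  {V' : Type} [NormedAddCommGroup V'] [NormedSpace ℂ V'] [FiniteDimensional ℂ V']

/-- a bilinear map of finite dimensional spaces as a continuous one -/
def toβ (f : V →ₗ[ℂ] V' →ₗ[ℂ] ℂ) : V →L[ℂ] V' →L[ℂ] ℂ :=
  LinearMap.toContinuousLinearMap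
    ((LinearMap.toContinuousLinearMap : (V' →ₗ[ℂ] ℂ) ≃ₗ[ℂ] (V' →L[ℂ] ℂ)).toLinearMap ∘ₗ f)

@[simp] theorem toβ_apply (f : V →ₗ[ℂ] V' →ₗ[ℂ] ℂ) (v : V) (v' : V') :
    toβ f v v' = f v v' := rfl

theorem exists_sharp (β : V →L[ℂ] V' →L[ℂ] ℂ) (nd : ∀ v', (∀ v, β v v' = 0) → v' = 0)
    (hd : Module.finrank ℂ V = Module.finrank ℂ V') :
    ∃ s : (V →L[ℂ] ℂ) →L[ℂ] V', ∀ φ v, β v (s φ) = φ v := by
  let f : V' →ₗ[ℂ] (V →L[ℂ] ℂ) := β.flip
  have hf : Function.Injective f := by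
    rw [← LinearMap.ker_eq_bot, LinearMap.ker_eq_bot']
    intro v' hv'
    refine nd v' fun v => ?_
    have h1 : β v v' = f v' v := rfl
    rw [h1, hv']
    rfl
  have hd' : Module.finrank ℂ V' = Module.finrank ℂ (V →L[ℂ] ℂ) := by
    rw [← hd, ← (LinearMap.toContinuousLinearMap : (V →ₗ[ℂ] ℂ) ≃ₗ[ℂ] (V →L[ℂ] ℂ)).finrank_eq]
    exact (Subspace.dual_finrank_eq).symm
  let e := LinearEquiv.ofInjectiveOfFinrankEq f hf hd'
  refine ⟨LinearMap.toContinuousLinearMap e.symm.toLinearMap, fun φ v => ?_⟩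
  have h1 : f (e.symm φ) = φ := e.apply_symm_apply φ
  have h2 : β v (e.symm φ) = f (e.symm φ) v := rfl
  change β v (e.symm φ) = φ v
  rw [h2, h1]

end lin

variable {r : ℕ}

/-- `u ⬝ᵥ G *ᵥ v` -/
def β0 (G : Matrix (Fin r) (Fin r) ℂ) : (Fin r → ℂ) →L[ℂ] (Fin r → ℂ) →L[ℂ] ℂ :=
  toβ (LinearMap.mk₂ ℂ (fun u v => u ⬝ᵥ (G *ᵥ v))
    (by intro u u' v; exact add_dotProduct _ _ _)
    (by intro c u v; exact smul_dotProduct _ _ _)
    (by intro u v v'; simp only [Matrix.mulVec_add, dotProduct_add])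
    (by intro c u v; simp only [Matrix.mulVec_smul, dotProduct_smul]))

@[simp] theorem β0_apply (G : Matrix (Fin r) (Fin r) ℂ) (u v : Fin r → ℂ) :
    β0 G u v = u ⬝ᵥ (G *ᵥ v) := rfl

/-- `w_0 ⬝ᵥ G *ᵥ v_1 - w_1 ⬝ᵥ G *ᵥ v_0` -/
def β1 (G : Matrix (Fin r) (Fin r) ℂ) :
    (Fin 2 → Fin r → ℂ) →L[ℂ] (Fin 2 → Fin r → ℂ) →L[ℂ] ℂ :=
  toβ (LinearMap.mk₂ ℂ (fun w v => β0 G (w 0) (v 1) - β0 G (w 1) (v 0))
    (by
      intro u u' v
      simp only [Pi.add_apply, map_add, add_apply]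
      ring)
    (by
      intro c u v
      simp only [Pi.smul_apply, map_smul, smul_apply, smul_sub])
    (by
      intro u v v'
      simp only [Pi.add_apply, map_add]
      ring)
    (by
      intro c u v
      simp only [Pi.smul_apply, map_smul, smul_sub]))

theorem β1_apply (G : Matrix (Fin r) (Fin r) ℂ) (w v : Fin 2 → Fin r → ℂ) :
    β1 G w v = β0 G (w 0) (v 1) - β0 G (w 1) (v 0) := rfl

theorem nd0 {G : Matrix (Fin r) (Fin r) ℂ} (hG : IsUnit G.det) (v' : Fin r → ℂ)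
    (h : ∀ v, β0 G v v' = 0) : v' = 0 := by
  have h1 : G *ᵥ v' = 0 := by
    funext i
    have := h (Pi.single i 1)
    simpa using this
  have h2 : G⁻¹ *ᵥ (G *ᵥ v') = v' := by
    rw [Matrix.mulVec_mulVec, Matrix.nonsing_inv_mul G hG, Matrix.one_mulVec]
  rw [← h2, h1, Matrix.mulVec_zero]

theorem nd1 {G : Matrix (Fin r) (Fin r) ℂ} (hG : IsUnit G.det) (v' : Fin 2 → Fin r → ℂ)
    (h : ∀ v, β1 G v v' = 0) : v' = 0 := by
  have h1 : v' 1 = 0 := nd0 hG _ fun x => by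
    have := h (Pi.single 0 x)
    rw [β1_apply] at this
    simpa using this
  have h0 : v' 0 = 0 := nd0 hG _ fun x => by
    have := h (Pi.single 1 x)
    rw [β1_apply] at this
    simpa using this
  funext j
  fin_cases j
  · exact h0
  · exact h1

/-! ### duality -/

variable {X : Type*} [TopologicalSpace X] [ChartedSpace C2 X] {A : FinAt X}

/-- `B'` is `K ⊗ B^*` by means of the constant matrix `G` -/
structure SD (B B' : Bun A r) (G : Matrix (Fin r) (Fin r) ℂ) : Prop where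
  unit : IsUnit G.det
  rel : ∀ a b, ∀ z ∈ A.ov a b, (A.J a b z).det • ((B.E a b z)ᵀ * G * B'.E a b z) = G

theorem SD.symm {B B' : Bun A r} {G : Matrix (Fin r) (Fin r) ℂ} (h : SD B B' G) :
    SD B' B Gᵀ := by
  refine ⟨by rw [Matrix.det_transpose]; exact h.unit, fun a b z hz => ?_⟩
  have h1 := congrArg Matrix.transpose (h.rel a b z hz)
  rw [Matrix.transpose_smul, Matrix.transpose_mul, Matrix.transpose_mul,
    Matrix.transpose_transpose, ← Matrix.mul_assoc] at h1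
  exact h1

variable {B B' : Bun A r} {G : Matrix (Fin r) (Fin r) ℂ}

theorem SD.key (h : SD B B' G) {a b : Fin A.N} {z : C2} (hz : z ∈ A.ov a b) (v v' : Fin r → ℂ) :
    (A.J a b z).det * β0 G (B.E a b z *ᵥ v) (B'.E a b z *ᵥ v') = β0 G v v' := by
  have h1 := congrArg (fun M => v ⬝ᵥ (M *ᵥ v')) (h.rel a b z hz)
  simp only [Matrix.smul_mulVec, dotProduct_smul, smul_eq_mul] at h1
  rw [β0_apply, β0_apply, ← h1]
  congr 1
  rw [← Matrix.mulVec_mulVec, ← Matrix.mulVec_mulVec, Matrix.dotProduct_mulVec v,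
    Matrix.vecMul_transpose]

variable [IsManifold 𝓘(ℂ, C2) ω X]

theorem norm_rel {a b : Fin A.N} {z : C2} (hz : z ∈ A.ov a b) :
    ((‖(A.J a b z).det‖ ^ 2 : ℝ) : ℂ) * (Bun.Cm A a b z).det = (A.J a b z).det := by
  have h1 := Bun.det_Cm hz
  have h2 : ((‖(A.J a b z).det‖ ^ 2 : ℝ) : ℂ) = (A.J a b z).det * conj (A.J a b z).det := by
    rw [Complex.mul_conj, Complex.normSq_eq_norm_sq]
  rw [h2, mul_assoc, mul_comm (conj _), h1, mul_one]

/-- pairing of `(0,0)`-forms with values in `B` and `(0,2)`-forms with values in `B'` -/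
def SD.dp0 (h : SD B B' G) : DP B.sb0 B'.sb2 where
  β := β0 G
  compat a b z hz v v' := by
    change ((‖(A.J a b z).det‖ ^ 2 : ℝ) : ℂ) * β0 G (B.E a b z *ᵥ v)
      ((Bun.Cm A a b z).det • (B'.E a b z *ᵥ v')) = _
    rw [map_smul, smul_eq_mul, ← mul_assoc, norm_rel hz, h.key hz]
  sharp := (exists_sharp (β0 G) (nd0 h.unit) rfl).choose
  sharp_apply := (exists_sharp (β0 G) (nd0 h.unit) rfl).choose_spec
  nd := nd0 h.unit

/-- pairing of `(0,2)`-forms with values in `B` and `(0,0)`-forms with values in `B'` -/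
def SD.dp2 (h : SD B B' G) : DP B.sb2 B'.sb0 where
  β := β0 G
  compat a b z hz v v' := by
    change ((‖(A.J a b z).det‖ ^ 2 : ℝ) : ℂ) * β0 G
      ((Bun.Cm A a b z).det • (B.E a b z *ᵥ v)) (B'.E a b z *ᵥ v') = _
    rw [map_smul, smul_apply, smul_eq_mul, ← mul_assoc, norm_rel hz, h.key hz]
  sharp := (exists_sharp (β0 G) (nd0 h.unit) rfl).choose
  sharp_apply := (exists_sharp (β0 G) (nd0 h.unit) rfl).choose_spec
  nd := nd0 h.unit

/-- pairing of `(0,1)`-forms with values in `B` and `(0,1)`-forms with values in `B'` -/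
def SD.dp1 (h : SD B B' G) : DP B.sb1 B'.sb1 where
  β := β1 G
  compat a b z hz v v' := by
    change ((‖(A.J a b z).det‖ ^ 2 : ℝ) : ℂ) * β1 G
      (mL1 (Bun.Cm A a b z) (B.E a b z) v) (mL1 (Bun.Cm A a b z) (B'.E a b z) v') = _
    have h1 : β1 G (mL1 (Bun.Cm A a b z) (B.E a b z) v) (mL1 (Bun.Cm A a b z) (B'.E a b z) v') =
        (Bun.Cm A a b z).det * β1 G (fun j => B.E a b z *ᵥ v j) (fun j => B'.E a b z *ᵥ v' j) := by
      simp only [β1_apply, mL1_apply, Fin.sum_univ_two, map_add, map_smul, add_apply,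
        smul_apply, smul_eq_mul, Matrix.det_fin_two]
      ring
    rw [h1, ← mul_assoc, norm_rel hz, β1_apply, β1_apply, mul_sub, h.key hz, h.key hz]
  sharp := (exists_sharp (β1 G) (nd1 h.unit) rfl).choose
  sharp_apply := (exists_sharp (β1 G) (nd1 h.unit) rfl).choose_spec
  nd := nd1 h.unit

/-! ### Stokes' theorem in a chart -/

section model

variable {V : Type*} [NormedAddCommGroup V] [NormedSpace ℂ V]

omit [IsManifold 𝓘(ℂ, C2) ω X] in
theorem int_fderiv_zero {F : C2 → V} (hF : ContDiff ℝ 1 F) (hc : HasCompactSupport F)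
    (v : C2) : ∫ z, fderiv ℝ F z v = 0 := by
  have hcd : Continuous fun z => fderiv ℝ F z v :=
    (hF.continuous_fderiv (by norm_num)).clm_apply continuous_const
  have hcc : HasCompactSupport fun z => fderiv ℝ F z v := hc.fderiv_apply ℝ v
  have h1 : Integrable (fun z : C2 => (1 : ℝ) • fderiv ℝ F z v) := by
    simpa using hcd.integrable_of_hasCompactSupport hcc
  have h2 : Integrable (fun z : C2 => fderiv ℝ (fun _ : C2 => (1 : ℝ)) z v • F z) := by
    simp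
  have h3 : Integrable (fun z : C2 => (1 : ℝ) • F z) := by
    simpa using hF.continuous.integrable_of_hasCompactSupport hc
  have h := integral_smul_fderiv_eq_neg_fderiv_smul_of_integrable (𝕜 := ℝ) (μ := volume)
    (f := fun _ : C2 => (1 : ℝ)) (g := F) (v := v) h2 h1 h3
    (fun x _ => differentiableAt_const _) (fun x _ => hF.differentiable (by norm_num) x)
  simpa using h

theorem int_dzb_zero {F : C2 → V} (hF : ContDiff ℝ 1 F) (hc : HasCompactSupport F)
    (j : Fin 2) : ∫ z, dzb j F z = 0 := by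
  have hcd : ∀ v : C2, Integrable fun z => fderiv ℝ F z v := fun v =>
    ((hF.continuous_fderiv (by norm_num)).clm_apply
      continuous_const).integrable_of_hasCompactSupport (hc.fderiv_apply ℝ v)
  have hI : Integrable fun z => Complex.I • fderiv ℝ F z (Pi.single j Complex.I) :=
    (hcd _).smul Complex.I
  unfold dzb
  rw [integral_smul, integral_add (hcd _) hI, integral_smul,
    int_fderiv_zero hF hc, int_fderiv_zero hF hc]
  simp

theorem integrable_dzb {F : C2 → V} (hF : ContDiff ℝ 1 F) (hc : HasCompactSupport F)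
    (j : Fin 2) : Integrable (dzb j F) := by
  have hcd : ∀ v : C2, Integrable fun z => fderiv ℝ F z v := fun v =>
    ((hF.continuous_fderiv (by norm_num)).clm_apply
      continuous_const).integrable_of_hasCompactSupport (hc.fderiv_apply ℝ v)
  have hI : Integrable fun z => Complex.I • fderiv ℝ F z (Pi.single j Complex.I) :=
    (hcd _).smul Complex.I
  unfold dzb
  exact ((hcd _).add hI).smul _

theorem dzb_bilin {V W Z : Type*} [NormedAddCommGroup V] [NormedSpace ℂ V]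
    [NormedAddCommGroup W] [NormedSpace ℂ W] [NormedAddCommGroup Z] [NormedSpace ℂ Z]
    (β : V →L[ℂ] W →L[ℂ] Z) {f : C2 → V} {g : C2 → W} {z : C2}
    (hf : DifferentiableAt ℝ f z) (hg : DifferentiableAt ℝ g z) (j : Fin 2) :
    dzb j (fun y => β (f y) (g y)) z = β (dzb j f z) (g z) + β (f z) (dzb j g z) := by
  let βr : V →L[ℝ] W →L[ℝ] Z :=
    (ContinuousLinearMap.restrictScalarsL ℂ W Z ℝ ℝ).comp (β.restrictScalars ℝ)
  have h : fderiv ℝ (fun y => βr (f y) (g y)) z =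
      βr.precompR C2 (f z) (fderiv ℝ g z) + βr.precompL C2 (fderiv ℝ f z) (g z) :=
    ContinuousLinearMap.fderiv_of_bilinear βr hf hg
  have h1 : ∀ v, fderiv ℝ (fun y => β (f y) (g y)) z v =
      β (f z) (fderiv ℝ g z v) + β (fderiv ℝ f z v) (g z) := by
    intro v
    have h2 := congrArg (fun L : C2 →L[ℝ] Z => L v) h
    exact h2
  simp only [dzb, h1, map_add, map_smul, smul_add, add_apply, smul_apply]
  abel

end model

/-- `∂̄` in degree 0, in a chart -/
def D0 (φ : C2 → Fin r → ℂ) (z : C2) : Fin 2 → Fin r → ℂ := fun j => dzb j φ z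

/-- `∂̄` in degree 1, in a chart -/
def D1 (ψ : C2 → Fin 2 → Fin r → ℂ) (z : C2) : Fin r → ℂ :=
  dzb 0 (fun y => ψ y 1) z - dzb 1 (fun y => ψ y 0) z

theorem contDiffOn_D0 {O : Set C2} (hO : IsOpen O) {φ : C2 → Fin r → ℂ}
    (h : ContDiffOn ℝ ∞ φ O) : ContDiffOn ℝ ∞ (D0 φ) O := by
  rw [contDiffOn_pi]
  exact fun j => contDiffOn_dzb hO h (by exact_mod_cast le_rfl) j

theorem contDiffOn_D1 {O : Set C2} (hO : IsOpen O) {ψ : C2 → Fin 2 → Fin r → ℂ}
    (h : ContDiffOn ℝ ∞ ψ O) : ContDiffOn ℝ ∞ (D1 ψ) O := by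
  have hw' : ∀ i, ContDiffOn ℝ ∞ (fun z => ψ z i) O := fun i => contDiffOn_pi.1 h i
  exact (contDiffOn_dzb hO (hw' 1) (by exact_mod_cast le_rfl) 0).sub
    (contDiffOn_dzb hO (hw' 0) (by exact_mod_cast le_rfl) 1)

omit [IsManifold 𝓘(ℂ, C2) ω X] in
theorem csupp_D0 {c : Fin A.N} {φ : C2 → Fin r → ℂ} (h : CSupp A c φ) : CSupp A c (D0 φ) := by
  obtain ⟨L, hL, hLO, h0⟩ := h
  refine ⟨L, hL, hLO, fun z hz => ?_⟩
  have h1 : φ =ᶠ[𝓝 z] fun _ => 0 := by
    filter_upwards [hL.isClosed.isOpen_compl.mem_nhds hz] with y hy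
    exact h0 y hy
  funext j
  change dzb j φ z = 0
  rw [dzb_congr h1, dzb_const]

omit [IsManifold 𝓘(ℂ, C2) ω X] in
theorem csupp_D1 {c : Fin A.N} {ψ : C2 → Fin 2 → Fin r → ℂ} (h : CSupp A c ψ) :
    CSupp A c (D1 ψ) := by
  obtain ⟨L, hL, hLO, h0⟩ := h
  refine ⟨L, hL, hLO, fun z hz => ?_⟩
  have h1 : ∀ i, (fun y => ψ y i) =ᶠ[𝓝 z] fun _ => 0 := by
    intro i
    filter_upwards [hL.isClosed.isOpen_compl.mem_nhds hz] with y hy
    rw [h0 y hy]
    rfl
  change dzb 0 (fun y => ψ y 1) z - dzb 1 (fun y => ψ y 0) z = 0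
  rw [dzb_congr (h1 1), dzb_congr (h1 0), dzb_const, dzb_const, sub_zero]

theorem dzb_comp_pi {n : ℕ} {V : Type} [NormedAddCommGroup V] [NormedSpace ℂ V]
    {ψ : C2 → Fin n → V} {z : C2} (h : DifferentiableAt ℝ ψ z) (i : Fin n) :
    DifferentiableAt ℝ (fun y => ψ y i) z := differentiableAt_pi.1 h i

omit [IsManifold 𝓘(ℂ, C2) ω X] in
/-- Stokes in a chart, from degree 0 to 1 -/
theorem stokes_loc01 (G : Matrix (Fin r) (Fin r) ℂ) {c : Fin A.N} {φ : C2 → Fin r → ℂ}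
    (hφ : ContDiffOn ℝ ∞ φ (A.O c)) (hc : CSupp A c φ) {v : C2 → Fin 2 → Fin r → ℂ}
    (hv : ContDiffOn ℝ ∞ v (A.O c)) :
    ∫ z, β1 G (D0 φ z) (v z) = - ∫ z, β0 G (φ z) (D1 v z) := by
  obtain ⟨L, hL, hLO, h0⟩ := hc
  have hv' : ∀ i, ContDiffOn ℝ ∞ (fun z => v z i) (A.O c) := fun i => contDiffOn_pi.1 hv i
  have hF : ∀ j, ContDiff ℝ ∞ fun z => β0 G (φ z) (v z j) := fun j =>
    contDiff_of_supp (A.isOpen_O c) hL.isClosed hLO (contDiffOn_β _ hφ (hv' j)) fun z hz => by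
      rw [h0 z hz]
      simp
  have hFc : ∀ j, HasCompactSupport fun z => β0 G (φ z) (v z j) := fun j =>
    HasCompactSupport.intro hL fun z hz => by
      rw [h0 z hz]
      simp
  have h1 : ∀ z, β1 G (D0 φ z) (v z) + β0 G (φ z) (D1 v z) =
      dzb 0 (fun z => β0 G (φ z) (v z 1)) z - dzb 1 (fun z => β0 G (φ z) (v z 0)) z := by
    intro z
    by_cases hz : z ∈ A.O c
    · have h2 : DifferentiableAt ℝ φ z :=
        (hφ.contDiffAt ((A.isOpen_O c).mem_nhds hz)).differentiableAt (by simp)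
      have h3 : ∀ i, DifferentiableAt ℝ (fun y => v y i) z := fun i =>
        ((hv' i).contDiffAt ((A.isOpen_O c).mem_nhds hz)).differentiableAt (by simp)
      rw [dzb_bilin (β0 G) h2 (h3 1), dzb_bilin (β0 G) h2 (h3 0), β1_apply]
      simp only [D0, D1, map_sub]
      ring
    · have hz' : z ∉ L := fun h => hz (hLO h)
      have h2 : φ =ᶠ[𝓝 z] fun _ => 0 := by
        filter_upwards [hL.isClosed.isOpen_compl.mem_nhds hz'] with y hy
        exact h0 y hy
      have h3 : ∀ j, (fun z => β0 G (φ z) (v z j)) =ᶠ[𝓝 z] fun _ => 0 := by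
        intro j
        filter_upwards [h2] with y hy
        rw [hy]
        simp
      have h4 : D0 φ z = 0 := by
        funext j
        change dzb j φ z = 0
        rw [dzb_congr h2, dzb_const]
      rw [dzb_congr (h3 0), dzb_congr (h3 1), dzb_const, dzb_const, h4, h0 z hz']
      simp
  have hi1 : Integrable fun z => β1 G (D0 φ z) (v z) :=
    integrable_β (contDiffOn_D0 (A.isOpen_O c) hφ) hv (Or.inl (csupp_D0 ⟨L, hL, hLO, h0⟩))
  have hi2 : Integrable fun z => β0 G (φ z) (D1 v z) :=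
    integrable_β hφ (contDiffOn_D1 (A.isOpen_O c) hv) (Or.inl ⟨L, hL, hLO, h0⟩)
  rw [eq_neg_iff_add_eq_zero, ← integral_add hi1 hi2]
  have h5 : ∫ z, (β1 G (D0 φ z) (v z) + β0 G (φ z) (D1 v z)) =
      ∫ z, (dzb 0 (fun z => β0 G (φ z) (v z 1)) z - dzb 1 (fun z => β0 G (φ z) (v z 0)) z) :=
    integral_congr_ae (Eventually.of_forall h1)
  have hF1 : ∀ j, ContDiff ℝ 1 fun z => β0 G (φ z) (v z j) := fun j => (hF j).of_le (by simp)
  rw [h5, integral_sub (integrable_dzb (hF1 1) (hFc 1) 0) (integrable_dzb (hF1 0) (hFc 0) 1),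
    int_dzb_zero (hF1 1) (hFc 1) 0, int_dzb_zero (hF1 0) (hFc 0) 1, sub_zero]

omit [IsManifold 𝓘(ℂ, C2) ω X] in
/-- Stokes in a chart, from degree 1 to 2 -/
theorem stokes_loc12 (G : Matrix (Fin r) (Fin r) ℂ) {c : Fin A.N} {ψ : C2 → Fin 2 → Fin r → ℂ}
    (hψ : ContDiffOn ℝ ∞ ψ (A.O c)) (hc : CSupp A c ψ) {η : C2 → Fin r → ℂ}
    (hη : ContDiffOn ℝ ∞ η (A.O c)) :
    ∫ z, β0 G (D1 ψ z) (η z) = ∫ z, β1 G (ψ z) (D0 η z) := by
  obtain ⟨L, hL, hLO, h0⟩ := hc
  have hψ' : ∀ i, ContDiffOn ℝ ∞ (fun z => ψ z i) (A.O c) := fun i => contDiffOn_pi.1 hψ i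
  have hF : ∀ j, ContDiff ℝ ∞ fun z => β0 G (ψ z j) (η z) := fun j =>
    contDiff_of_supp (A.isOpen_O c) hL.isClosed hLO (contDiffOn_β _ (hψ' j) hη) fun z hz => by
      rw [h0 z hz]
      simp
  have hFc : ∀ j, HasCompactSupport fun z => β0 G (ψ z j) (η z) := fun j =>
    HasCompactSupport.intro hL fun z hz => by
      rw [h0 z hz]
      simp
  have h1 : ∀ z, β0 G (D1 ψ z) (η z) - β1 G (ψ z) (D0 η z) =
      dzb 0 (fun z => β0 G (ψ z 1) (η z)) z - dzb 1 (fun z => β0 G (ψ z 0) (η z)) z := by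
    intro z
    by_cases hz : z ∈ A.O c
    · have h2 : DifferentiableAt ℝ η z :=
        (hη.contDiffAt ((A.isOpen_O c).mem_nhds hz)).differentiableAt (by simp)
      have h3 : ∀ i, DifferentiableAt ℝ (fun y => ψ y i) z := fun i =>
        ((hψ' i).contDiffAt ((A.isOpen_O c).mem_nhds hz)).differentiableAt (by simp)
      rw [dzb_bilin (β0 G) (h3 1) h2, dzb_bilin (β0 G) (h3 0) h2, β1_apply]
      simp only [D0, D1, map_sub, sub_apply]
      ring
    · have hz' : z ∉ L := fun h => hz (hLO h)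
      have h2 : ∀ i, (fun y => ψ y i) =ᶠ[𝓝 z] fun _ => 0 := by
        intro i
        filter_upwards [hL.isClosed.isOpen_compl.mem_nhds hz'] with y hy
        rw [h0 y hy]
        rfl
      have h3 : ∀ j, (fun z => β0 G (ψ z j) (η z)) =ᶠ[𝓝 z] fun _ => 0 := by
        intro j
        filter_upwards [h2 j] with y hy
        rw [hy]
        simp
      have h4 : D1 ψ z = 0 := by
        change dzb 0 (fun y => ψ y 1) z - dzb 1 (fun y => ψ y 0) z = 0
        rw [dzb_congr (h2 1), dzb_congr (h2 0), dzb_const, dzb_const, sub_zero]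
      rw [dzb_congr (h3 0), dzb_congr (h3 1), dzb_const, dzb_const, h4, h0 z hz']
      simp
  have hi1 : Integrable fun z => β0 G (D1 ψ z) (η z) :=
    integrable_β (contDiffOn_D1 (A.isOpen_O c) hψ) hη (Or.inl (csupp_D1 ⟨L, hL, hLO, h0⟩))
  have hi2 : Integrable fun z => β1 G (ψ z) (D0 η z) :=
    integrable_β hψ (contDiffOn_D0 (A.isOpen_O c) hη) (Or.inl ⟨L, hL, hLO, h0⟩)
  rw [← sub_eq_zero, ← integral_sub hi1 hi2]
  have h5 : ∫ z, (β0 G (D1 ψ z) (η z) - β1 G (ψ z) (D0 η z)) =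
      ∫ z, (dzb 0 (fun z => β0 G (ψ z 1) (η z)) z - dzb 1 (fun z => β0 G (ψ z 0) (η z)) z) :=
    integral_congr_ae (Eventually.of_forall h1)
  have hF1 : ∀ j, ContDiff ℝ 1 fun z => β0 G (ψ z j) (η z) := fun j => (hF j).of_le (by simp)
  rw [h5, integral_sub (integrable_dzb (hF1 1) (hFc 1) 0) (integrable_dzb (hF1 0) (hFc 0) 1),
    int_dzb_zero (hF1 1) (hFc 1) 0, int_dzb_zero (hF1 0) (hFc 0) 1, sub_zero]

/-! ### Stokes' theorem -/

section global

variable [T2Space X]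

/-- an extension by zero vanishes near the points outside the chart -/
theorem extz_eventually_zero {W : Type} [NormedAddCommGroup W] [NormedSpace ℂ W] (S : SB A W)
    {c b : Fin A.N} {F : C2 → W} (hc : CSupp A c F) {z : C2} (hz : z ∈ A.O b)
    (hzc : z ∉ A.ov b c) : extz S c F b =ᶠ[𝓝 z] fun _ => 0 := by
  obtain ⟨L, hL, hLO, hL0⟩ := hc
  have h1 : ∀ y ∈ L, (A.e c).symm y ≠ (A.e b).symm z := by
    intro y hy hyz
    apply hzc
    refine ⟨hz, ?_⟩
    rw [← hyz]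
    exact (hLO hy).2
  filter_upwards [eventually_not_mem hL hLO hz h1] with w hw
  by_cases hwc : w ∈ A.ov b c
  · rw [extz_of_mem S F hwc, hL0, map_zero]
    intro hmem
    exact hw.2 _ hmem (FinAt.symm_tau hwc)
  · exact extz_of_notMem S F hwc

theorem d0_extS {c : Fin A.N} {φ : C2 → Fin r → ℂ} (hφ : ContDiffOn ℝ ∞ φ (A.O c))
    (hc : CSupp A c φ) : B.d0 (extS B.sb0 c φ hφ hc) =
      extS B.sb1 c (D0 φ) (contDiffOn_D0 (A.isOpen_O c) hφ) (csupp_D0 hc) := by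
  refine sec_ext c (fun z hz => ?_) fun b z hz hzc => ?_
  · change Bun.d0f (extz B.sb0 c φ) c z = extz B.sb1 c (D0 φ) c z
    rw [extz_self _ _ hz, Bun.d0f, if_pos hz]
    funext j
    refine dzb_congr ?_ j
    filter_upwards [(A.isOpen_O c).mem_nhds hz] with y hy
    exact extz_self _ _ hy
  · change Bun.d0f (extz B.sb0 c φ) b z = extz B.sb1 c (D0 φ) b z
    have h1 : z ∉ A.ov b c := fun h => hzc h.2
    rw [extz_of_notMem _ _ h1, Bun.d0f, if_pos hz]
    funext j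
    change dzb j (extz B.sb0 c φ b) z = 0
    rw [dzb_congr (extz_eventually_zero B.sb0 hc hz h1), dzb_const]

theorem d1_extS {c : Fin A.N} {ψ : C2 → Fin 2 → Fin r → ℂ} (hψ : ContDiffOn ℝ ∞ ψ (A.O c))
    (hc : CSupp A c ψ) : B.d1 (extS B.sb1 c ψ hψ hc) =
      extS B.sb2 c (D1 ψ) (contDiffOn_D1 (A.isOpen_O c) hψ) (csupp_D1 hc) := by
  refine sec_ext c (fun z hz => ?_) fun b z hz hzc => ?_
  · change Bun.d1f (extz B.sb1 c ψ) c z = extz B.sb2 c (D1 ψ) c z
    rw [extz_self _ _ hz, Bun.d1f, if_pos hz]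
    have h1 : ∀ i, (fun y => extz B.sb1 c ψ c y i) =ᶠ[𝓝 z] fun y => ψ y i := by
      intro i
      filter_upwards [(A.isOpen_O c).mem_nhds hz] with y hy
      rw [extz_self _ _ hy]
    rw [dzb_congr (h1 1), dzb_congr (h1 0)]
    rfl
  · change Bun.d1f (extz B.sb1 c ψ) b z = extz B.sb2 c (D1 ψ) b z
    have h1 : z ∉ A.ov b c := fun h => hzc h.2
    rw [extz_of_notMem _ _ h1, Bun.d1f, if_pos hz]
    have h2 : ∀ i, (fun y => extz B.sb1 c ψ b y i) =ᶠ[𝓝 z] fun _ => 0 := by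
      intro i
      filter_upwards [extz_eventually_zero B.sb1 hc hz h1] with y hy
      rw [hy]
      rfl
    rw [dzb_congr (h2 1), dzb_congr (h2 0), dzb_const, dzb_const, sub_zero]

variable [CompactSpace X]

/-- **Stokes' theorem**: `(∂̄u, v) = -(u, ∂̄v)`, degree of `u` is `0` -/
theorem SD.stokes01 (h : SD B B' G) (u : B.sb0.Sec) (v : B'.sb1.Sec) :
    h.dp1.pr (B.d0 u).1 v.1 = - h.dp0.pr u.1 (B'.d1 v).1 := by
  have h1 : h.dp1.pr (B.d0 u).1 v.1 = ∑ c, h.dp1.pr (B.d0 (cut u c)).1 v.1 := by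
    conv_lhs => rw [← sum_cut u]
    simp only [← DP.prL_apply]
    rw [map_sum, map_sum, LinearMap.sum_apply]
  rw [h1, DP.pr_def, ← Finset.sum_neg_distrib]
  refine Finset.sum_congr rfl fun c _ => ?_
  rw [cut, d0_extS]
  have h2 := h.dp1.pr_extz_left (contDiffOn_D0 (A.isOpen_O c) (contDiffOn_ru u c))
    (csupp_D0 (csupp_r (u.1 c))) v
  have h3 := stokes_loc01 G (contDiffOn_ru u c) (csupp_r (u.1 c)) (sec_smooth v c)
  refine h2.trans (h3.trans ?_)
  congr 1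
  refine integral_congr_ae (Eventually.of_forall fun z => ?_)
  by_cases hz : z ∈ A.O c
  · change β0 G ((A.r c z : ℂ) • u.1 c z) (D1 (v.1 c) z) =
      (A.r c z : ℂ) * β0 G (u.1 c z) (Bun.d1f v.1 c z)
    rw [Bun.d1f, if_pos hz, map_smul]
    rfl
  · simp [r_notMem hz]

/-- **Stokes' theorem**: `(∂̄w, η) = (w, ∂̄η)`, degree of `w` is `1` -/
theorem SD.stokes12 (h : SD B B' G) (w : B.sb1.Sec) (η : B'.sb0.Sec) :
    h.dp2.pr (B.d1 w).1 η.1 = h.dp1.pr w.1 (B'.d0 η).1 := by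
  have h1 : h.dp2.pr (B.d1 w).1 η.1 = ∑ c, h.dp2.pr (B.d1 (cut w c)).1 η.1 := by
    conv_lhs => rw [← sum_cut w]
    simp only [← DP.prL_apply]
    rw [map_sum, map_sum, LinearMap.sum_apply]
  rw [h1, DP.pr_def]
  refine Finset.sum_congr rfl fun c _ => ?_
  rw [cut, d1_extS]
  have h2 := h.dp2.pr_extz_left (contDiffOn_D1 (A.isOpen_O c) (contDiffOn_ru w c))
    (csupp_D1 (csupp_r (w.1 c))) η
  have h3 := stokes_loc12 G (contDiffOn_ru w c) (csupp_r (w.1 c)) (sec_smooth η c)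
  refine h2.trans (h3.trans ?_)
  refine integral_congr_ae (Eventually.of_forall fun z => ?_)
  by_cases hz : z ∈ A.O c
  · change β1 G ((A.r c z : ℂ) • w.1 c z) (D0 (η.1 c) z) =
      (A.r c z : ℂ) * β1 G (w.1 c z) (Bun.d0f η.1 c z)
    rw [Bun.d0f, if_pos hz, map_smul]
    rfl
  · simp [r_notMem hz]

end global

end Vale.Agent.P267.H983
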