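import Vale.Agent.P267.H983.SerBun
import Vale.Agent.P267.H983.DictOm
import Vale.Agent.P267.H439.SerreAbs

/-!
# P267 / H983, package SERRE-BUN: Serre duality for holomorphic bundles

`SD.sl2`, `SD.sl1`: a (closed) form is exact iff it is orthogonal to all closed forms of the dual
complex; `SD.h2_eq_h0`, `SD.h1_eq_h1`, `SD.h0_eq_h2`: equality of dimensions;
`Bun.sd`: the dual bundle `K ⊗ B^*`; `sdOm`: `Ω¹` is dual to itself.
-/

set_option linter.unusedSectionVars false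

open scoped Manifold ContDiff ComplexConjugate Matrix
open MeasureTheory Set Filter Topology

noncomputable section

namespace Vale.Agent.P267.H983

open Vale.Agent.P267.FL Vale.Agent.P267.RR Vale.Agent.P267.H462

/-- a perfect pairing gives equality of dimensions, without finiteness -/
theorem finrank_perfect {U U' : Type*} [AddCommGroup U] [Module ℂ U] [AddCommGroup U']
    [Module ℂ U'] (p : U →ₗ[ℂ] U' →ₗ[ℂ] ℂ) (N : Submodule ℂ U) (N' : Submodule ℂ U')
    (h1 : ∀ u, u ∈ N ↔ ∀ u', p u u' = 0) (h2 : ∀ u', u' ∈ N' ↔ ∀ u, p u u' = 0) :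
    Module.finrank ℂ (U ⧸ N) = Module.finrank ℂ (U' ⧸ N') := by
  by_cases hf : FiniteDimensional ℂ (U' ⧸ N')
  · exact H439.Serre.finrank_quot_eq p N N' h1 h2
  · by_cases hf' : FiniteDimensional ℂ (U ⧸ N)
    · exfalso
      apply hf
      exact (H439.Serre.finrank_quot_le p.flip N' N (fun u h => (h2 u).2 fun v => by
        simpa using h v) (fun u h v => by simpa using (h2 u).1 h v)
        (fun u h v => by simpa using (h1 u).1 h v)).1
    · rw [Module.finrank_of_not_finite hf, Module.finrank_of_not_finite hf']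

variable {X : Type*} [TopologicalSpace X] [ChartedSpace C2 X] [IsManifold 𝓘(ℂ, C2) ω X]
  {A : FinAt X} {r : ℕ}

/-- the exact `(0,1)`-forms are detected by the functionals which are bounded in the sup norm -/
def FR1 (B : Bun A r) : Prop :=
  ∀ w : B.sb1.Sec, B.d1 w = 0 → (∀ l : B.sb1.Sec →ₗ[ℂ] ℂ, Bdd l →
    (∀ u, l (B.d0 u) = 0) → l w = 0) → ∃ u, B.d0 u = w

/-- the exact `(0,2)`-forms are detected by the functionals which are bounded in the sup norm -/
def FR2 (B : Bun A r) : Prop :=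
  ∀ b : B.sb2.Sec, (∀ l : B.sb2.Sec →ₗ[ℂ] ℂ, Bdd l → (∀ w, l (B.d1 w) = 0) → l b = 0) →
    ∃ w, B.d1 w = b

variable [T2Space X] [CompactSpace X] {B B' : Bun A r} {G : Matrix (Fin r) (Fin r) ℂ}

/-- **Serre duality in degree 2**: a `(0,2)`-form is exact iff it is orthogonal to the holomorphic
sections of the dual bundle -/
theorem SD.sl2 (h : SD B B' G) (P : PS B) (hF : FR2 B) (b : B.sb2.Sec) :
    (∃ w, B.d1 w = b) ↔ ∀ η : B'.sb0.Sec, B'.d0 η = 0 → h.dp2.pr b.1 η.1 = 0 := by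
  constructor
  · rintro ⟨w, rfl⟩ η hη
    rw [h.stokes12, hη, ← DP.prL_apply, map_zero]
  · intro horth
    let S : B.sb2.Sec → B.sb2.Sec := fun u => u - B.d1 (P.P1 u)
    have hS : ∀ u, (S u).1 = P.k2.op u.1 := by
      intro u
      have h1 := P.eq2 u
      change u.1 - (B.d1 (P.P1 u)).1 = P.k2.op u.1
      rw [h1]
      abel
    refine H439.Serre.exact_of_orth (Ap := (Fin 0 → ℂ)) B.d1 0 (fun _ => rfl) P.P1 0 S
      (fun u => by simp [S]) {l | Bdd l} (fun w _ hw => hF w fun l hl => hw l hl)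
      (fun η => B'.d0 η) (fun u η => h.dp2.pr u.1 η.1) (fun u η => h.dp1.pr u.1 η.1) 1 one_ne_zero
      (fun u η => by rw [h.stokes12, one_mul]) 0 (fun ζ hζ => h.dp1.nd_right ζ hζ)
      (fun l hl => ?_) rfl horth
    obtain ⟨η, hη⟩ := h.dp2.smoothing P.k2 hl
    exact ⟨η, fun u => hη u (S u) (hS u)⟩

/-- **Serre duality in degree 1**: a closed `(0,1)`-form is exact iff it is orthogonal to the closed
`(0,1)`-forms with values in the dual bundle -/
theorem SD.sl1 (h : SD B B' G) (P : PS B) (hF : FR1 B) (w : B.sb1.Sec) (hw : B.d1 w = 0) :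
    (∃ u, B.d0 u = w) ↔ ∀ η : B'.sb1.Sec, B'.d1 η = 0 → h.dp1.pr w.1 η.1 = 0 := by
  constructor
  · rintro ⟨u, rfl⟩ η hη
    rw [h.stokes01, hη, ← DP.prL_apply, map_zero, neg_zero]
  · intro horth
    let S : B.sb1.Sec → B.sb1.Sec := fun u => u - B.d0 (P.P0 u) - P.P1 (B.d1 u)
    have hS : ∀ u, (S u).1 = P.k1.op u.1 := by
      intro u
      have h1 := P.eq1 u
      change u.1 - (B.d0 (P.P0 u)).1 - (P.P1 (B.d1 u)).1 = P.k1.op u.1
      rw [sub_sub, h1]
      abel
    refine H439.Serre.exact_of_orth B.d0 B.d1 B.d1_d0 P.P0 P.P1 S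
      (fun u => by simp only [S]; abel) {l | Bdd l}
      (fun w hw' hw => hF w hw' fun l hl => hw l hl)
      (fun η => B'.d1 η) (fun u η => h.dp1.pr u.1 η.1) (fun u η => h.dp0.pr u.1 η.1) (-1)
      (by norm_num) (fun u η => by rw [h.stokes01, neg_one_mul]) 0
      (fun ζ hζ => h.dp0.nd_right ζ hζ) (fun l hl => ?_) hw horth
    obtain ⟨η, hη⟩ := h.dp1.smoothing P.k1 hl
    exact ⟨η, fun u => hη u (S u) (hS u)⟩

/-- `dim H²(B) = dim H⁰(K ⊗ B^*)` -/
theorem SD.h2_eq_h0 (h : SD B B' G) (P : PS B) (hF : FR2 B) : B.h2 = B'.h0 := by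
  unfold Bun.h2 Bun.h0
  refine (finrank_perfect (U := B.sb2.Sec) (U' := LinearMap.ker B'.d0)
    (h.dp2.prL.compl₂ (LinearMap.ker B'.d0).subtype) (LinearMap.range B.d1) ⊥ ?_ ?_).trans
    (Submodule.quotEquivOfEqBot _ rfl).finrank_eq
  · intro b
    rw [LinearMap.mem_range, h.sl2 P hF b]
    constructor
    · rintro h1 ⟨η, hη⟩
      exact h1 η hη
    · intro h1 η hη
      exact h1 ⟨η, hη⟩
  · rintro ⟨η, hη⟩
    constructor
    · intro h1 u
      rw [Submodule.mem_bot] at h1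
      rw [h1, map_zero]
    · intro h1
      rw [Submodule.mem_bot]
      exact Subtype.ext (h.dp2.nd_right η h1)

/-- `dim H⁰(B) = dim H²(K ⊗ B^*)` -/
theorem SD.h0_eq_h2 (h : SD B B' G) (P' : PS B') (hF' : FR2 B') : B.h0 = B'.h2 :=
  (h.symm.h2_eq_h0 P' hF').symm

theorem β0_transpose (G : Matrix (Fin r) (Fin r) ℂ) (u v : Fin r → ℂ) :
    β0 Gᵀ u v = β0 G v u := by
  rw [β0_apply, β0_apply, Matrix.mulVec_transpose, dotProduct_comm, Matrix.dotProduct_mulVec]

theorem β1_transpose (G : Matrix (Fin r) (Fin r) ℂ) (u v : Fin 2 → Fin r → ℂ) :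
    β1 Gᵀ u v = - β1 G v u := by
  rw [β1_apply, β1_apply, β0_transpose, β0_transpose]
  ring

theorem SD.pr1_symm (h : SD B B' G) (u : Fin A.N → C2 → Fin 2 → Fin r → ℂ)
    (v : Fin A.N → C2 → Fin 2 → Fin r → ℂ) : h.symm.dp1.pr v u = - h.dp1.pr u v := by
  rw [DP.pr_def, DP.pr_def, ← Finset.sum_neg_distrib]
  refine Finset.sum_congr rfl fun a _ => ?_
  rw [← integral_neg]
  refine integral_congr_ae (Eventually.of_forall fun z => ?_)
  change (A.r a z : ℂ) * β1 Gᵀ (v a z) (u a z) = -((A.r a z : ℂ) * β1 G (u a z) (v a z))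
  rw [β1_transpose]
  ring

/-- `dim H¹(B) = dim H¹(K ⊗ B^*)` -/
theorem SD.h1_eq_h1 (h : SD B B' G) (P : PS B) (hF : FR1 B) (P' : PS B') (hF' : FR1 B') :
    B.h1 = B'.h1 := by
  unfold Bun.h1 finrankCoh
  refine finrank_perfect (h.dp1.prL.domRestrict₁₂ (LinearMap.ker B.d1) (LinearMap.ker B'.d1))
    _ _ ?_ ?_
  · rintro ⟨w, hw⟩
    rw [Submodule.mem_comap, LinearMap.mem_range]
    change (∃ u, B.d0 u = w) ↔ _
    rw [h.sl1 P hF w hw]
    constructor
    · rintro h1 ⟨η, hη⟩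
      exact h1 η hη
    · intro h1 η hη
      exact h1 ⟨η, hη⟩
  · rintro ⟨η, hη⟩
    rw [Submodule.mem_comap, LinearMap.mem_range]
    change (∃ u, B'.d0 u = η) ↔ _
    rw [h.symm.sl1 P' hF' η hη]
    constructor
    · rintro h1 ⟨w, hw⟩
      have h2 := h1 w hw
      rw [h.pr1_symm, neg_eq_zero] at h2
      exact h2
    · intro h1 w hw
      rw [h.pr1_symm, neg_eq_zero]
      exact h1 ⟨w, hw⟩

/-! ### the dual bundle -/

section sd

omit [T2Space X] [CompactSpace X]

theorem analyticAt_det_inv {a b : Fin A.N} {z : C2} (hz : z ∈ A.ov a b) :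
    AnalyticAt ℂ (fun z => (A.J b a (A.tau a b z)).det) z := by
  simp only [Matrix.det_fin_two]
  exact ((FinAt.jac_inv_analyticAt hz 0 0).mul (FinAt.jac_inv_analyticAt hz 1 1)).sub
    ((FinAt.jac_inv_analyticAt hz 0 1).mul (FinAt.jac_inv_analyticAt hz 1 0))

/-- the bundle `K ⊗ B^*` -/
def sdBun (B : Bun A r) : Bun A r where
  E a b z := (A.J b a (A.tau a b z)).det • (B.E b a (A.tau a b z))ᵀ
  hol a b z hz i j := by
    have h1 : AnalyticAt ℂ (fun z => B.E b a (A.tau a b z) j i) z :=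
      (B.hol b a (A.tau a b z) (FinAt.tau_mem hz) j i).comp (f := A.tau a b)
        (FinAt.tau_analyticAt hz)
    exact (analyticAt_det_inv hz).mul h1
  self a z hz := by
    rw [FinAt.tau_self hz, B.self a z hz]
    unfold FinAt.J
    rw [jacM_self (FinAt.symm_mem_source hz)]
    simp
  comp a b c z hz hz' := by
    have h1 : A.tau a c z ∈ A.ov c a := FinAt.tau_mem hz'
    have h2 : A.tau a c z ∈ A.ov c b := (mem_ov_tau hz').2 hz
    have h3 := B.comp c b a (A.tau a c z) h2 h1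
    rw [FinAt.tau_comp b hz'] at h3
    have h4 := (omBun A).comp a b c z hz hz'
    have h5 := congrArg Matrix.det h4
    rw [Matrix.det_mul] at h5
    change (A.J c b (A.tau b c (A.tau a b z)))ᵀ.det * (A.J b a (A.tau a b z))ᵀ.det =
      (A.J c a (A.tau a c z))ᵀ.det at h5
    simp only [Matrix.det_transpose] at h5
    rw [← h5, ← h3, Matrix.transpose_mul, Matrix.smul_mul, Matrix.mul_smul, smul_smul,
      FinAt.tau_comp c hz]

theorem E_inv (B : Bun A r) {a b : Fin A.N} {z : C2} (hz : z ∈ A.ov a b) :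
    B.E b a (A.tau a b z) * B.E a b z = 1 := by
  rw [B.comp a b a z hz ⟨hz.1, hz.1.2⟩, B.self a z hz.1]

theorem det_J_mul {a b : Fin A.N} {z : C2} (hz : z ∈ A.ov a b) :
    (A.J a b z).det * (A.J b a (A.tau a b z)).det = 1 := by
  rw [← Matrix.det_mul, FinAt.J_mul_inv hz, Matrix.det_one]

theorem sd_sdBun (B : Bun A r) : SD B (sdBun B) 1 := by
  refine ⟨by simp, fun a b z hz => ?_⟩
  change (A.J a b z).det • ((B.E a b z)ᵀ * 1 *
    ((A.J b a (A.tau a b z)).det • (B.E b a (A.tau a b z))ᵀ)) = 1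
  rw [Matrix.mul_one, Matrix.mul_smul, smul_smul, det_J_mul hz, one_smul,
    ← Matrix.transpose_mul, E_inv B hz, Matrix.transpose_one]

/-- the symplectic matrix -/
def epsM : Matrix (Fin 2) (Fin 2) ℂ := !![0, 1; -1, 0]

theorem mul_epsM (M : Matrix (Fin 2) (Fin 2) ℂ) : M * epsM * Mᵀ = M.det • epsM := by
  ext i j
  fin_cases i <;> fin_cases j <;>
    simp [epsM, Matrix.mul_apply, Fin.sum_univ_two, Matrix.det_fin_two] <;> ring

/-- `Ω¹` is dual to itself -/
theorem sdOm (A : FinAt X) : SD (omBun A) (omBun A) epsM := by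
  refine ⟨by simp [epsM, Matrix.det_fin_two], fun a b z hz => ?_⟩
  change (A.J a b z).det • (((A.J b a (A.tau a b z))ᵀ)ᵀ * epsM * (A.J b a (A.tau a b z))ᵀ) = epsM
  rw [Matrix.transpose_transpose, mul_epsM, smul_smul, det_J_mul hz, one_smul]

end sd

/-- `h^{1,2} = h^{1,0}` -/
theorem h12_eq_h10 (P : PS (omBun A)) (hF : FR2 (omBun A)) : h12 X = h10 X := by
  rw [h12_eq' A, h10_eq' A]
  exact (sdOm A).h2_eq_h0 P hF

end Vale.Agent.P267.H983
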