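import Vale.Agent.P267.H462.Ext
import Vale.Agent.P267.H439.SerreKer

/-!
# P267 / H983, package SERRE-BUN: pairings of smooth bundles with values in densities

`DP S S'`: a constant perfect pairing of the fibres which turns sections of `S`, `S'` into
densities.  `DP.pr u v = ∑ a, ∫ r a * β (u a) (v a)`.
-/

set_option linter.unusedSectionVars false

open scoped Manifold ContDiff ComplexConjugate Matrix
open MeasureTheory Set Filter Topology

noncomputable section

namespace Vale.Agent.P267.H983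

open Vale.Agent.P267.FL Vale.Agent.P267.RR Vale.Agent.P267.H462

variable {X : Type*} [TopologicalSpace X] [ChartedSpace C2 X] {A : FinAt X}

/-! ### the functions `r a` -/

theorem r_mem {a : Fin A.N} {z : C2} (hz : z ∈ A.O a) :
    A.r a z = A.rho a ((A.e a).symm z) := by
  rw [FinAt.r, if_pos hz]

theorem r_notMem {a : Fin A.N} {z : C2} (hz : z ∉ A.O a) : A.r a z = 0 := by
  rw [FinAt.r, if_neg hz]

theorem r_zero {a : Fin A.N} {z : C2} (hz : z ∉ A.K a) : A.r a z = 0 := by
  by_cases h : z ∈ A.O a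
  · rw [r_mem h]
    by_contra h1
    apply hz
    exact ⟨(A.e a).symm z, subset_tsupport _ h1, (A.e a).right_inv h.1⟩
  · exact r_notMem h

theorem rho_le (a : Fin A.N) (x : X) : A.rho a x ≤ 1 := by
  rw [← A.rho_sum x]
  exact Finset.single_le_sum (fun b _ => A.rho_nonneg b x) (Finset.mem_univ a)

theorem rho_contDiffOn (a c : Fin A.N) :
    ContDiffOn ℝ ∞ (fun z => A.rho a ((A.e c).symm z)) (A.e c).target := by
  have h := A.rho_smooth a (A.e c) (A.he c)
  have h1 : ContDiffOn ℝ ∞ (fun z => (loc0 0 (A.e c) (fun x => (A.rho a x : ℂ)) z).re)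
      (A.e c).target := Complex.reCLM.contDiff.comp_contDiffOn h
  refine h1.congr fun z hz => ?_
  simp [loc0]

theorem contDiffOn_r (a : Fin A.N) : ContDiffOn ℝ ∞ (A.r a) (A.O a) := by
  refine ((rho_contDiffOn a a).mono fun z hz => hz.1).congr fun z hz => ?_
  rw [r_mem hz]

section cpt

variable [CompactSpace X]

theorem contDiff_r (a : Fin A.N) : ContDiff ℝ ∞ (A.r a) :=
  contDiff_of_supp (A.isOpen_O a) (isCompact_K a).isClosed (K_sub a) (contDiffOn_r a)
    fun _ hx => r_zero hx

theorem hasCompactSupport_r (a : Fin A.N) : HasCompactSupport (A.r a) :=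
  HasCompactSupport.intro (isCompact_K a) fun _ hz => r_zero hz

theorem tsupport_r (a : Fin A.N) : tsupport (A.r a) ⊆ A.K a :=
  closure_minimal (fun z hz => by
    by_contra h
    exact hz (r_zero h)) (isCompact_K a).isClosed

end cpt

/-! ### densities -/

/-- the sum over the charts of a density which is supported in the chart `c` -/
theorem sum_integral_density [IsManifold 𝓘(ℂ, C2) ω X] {f : Fin A.N → C2 → ℂ} (c : Fin A.N)
    (hc : ∀ a, ∀ z ∈ A.ov c a, ((‖(A.J c a z).det‖ ^ 2 : ℝ) : ℂ) * f a (A.tau c a z) = f c z)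
    (h0 : ∀ a, ∀ z ∉ A.ov a c, f a z = 0) (hi : Integrable (f c)) :
    ∑ a, ∫ z, (A.r a z : ℂ) * f a z = ∫ z, f c z := by
  have key : ∀ a, ∫ z, (A.r a z : ℂ) * f a z =
      ∫ w, (A.O c).indicator (fun w => (A.rho a ((A.e c).symm w) : ℂ)) w * f c w := by
    intro a
    have e1 : ∫ z, (A.r a z : ℂ) * f a z = ∫ z in A.ov a c, (A.r a z : ℂ) * f a z := by
      rw [setIntegral_eq_integral_of_forall_compl_eq_zero]
      intro z hz
      rw [h0 a z hz, mul_zero]
    have e2 : ∫ w, (A.O c).indicator (fun w => (A.rho a ((A.e c).symm w) : ℂ)) w * f c w =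
        ∫ w in A.ov c a, (A.rho a ((A.e c).symm w) : ℂ) * f c w := by
      rw [← setIntegral_eq_integral_of_forall_compl_eq_zero (s := A.ov c a)]
      · refine setIntegral_congr_fun (A.isOpen_ov c a).measurableSet fun w hw => ?_
        rw [indicator_of_mem hw.1]
      · intro w hw
        by_cases h : w ∈ A.O c
        · rw [indicator_of_mem h]
          have h1 : (A.e c).symm w ∉ tsupport (A.rho a) := fun h2 => hw ⟨h, A.rho_supp a h2⟩
          rw [image_eq_zero_of_notMem_tsupport h1]
          simp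
        · rw [indicator_of_notMem h, zero_mul]
    rw [e1, e2]
    have h := integral_trans (A.he c) (A.he a) ((A.isOpen_U a).inter (A.isOpen_U c))
      (inter_subset_right.trans (A.U_sub c)) (inter_subset_left.trans (A.U_sub a))
      (fun z => (A.r a z : ℂ) * f a z)
    rw [← FinAt.ov_eq, inter_comm (A.U a), ← FinAt.ov_eq] at h
    rw [h]
    refine setIntegral_congr_fun (A.isOpen_ov c a).measurableSet fun w hw => ?_
    have h1 : A.r a (A.tau c a w) = A.rho a ((A.e c).symm w) := by
      rw [r_mem (FinAt.tau_mem_O hw), FinAt.symm_tau hw]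
    have h2 := hc a w hw
    rw [← h2, ← h1]
    change (‖(A.J c a w).det‖ ^ 2 : ℝ) • ((A.r a (A.tau c a w) : ℂ) * f a (A.tau c a w)) = _
    rw [Complex.real_smul]
    ring
  have hint : ∀ a, Integrable
      (fun w => (A.O c).indicator (fun w => (A.rho a ((A.e c).symm w) : ℂ)) w * f c w) := by
    intro a
    refine hi.bdd_mul (c := 1) ?_ ?_
    · rw [aestronglyMeasurable_indicator_iff (A.isOpen_O c).measurableSet]
      refine ContinuousOn.aestronglyMeasurable ?_ (A.isOpen_O c).measurableSet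
      exact Complex.continuous_ofReal.comp_continuousOn
        (((rho_contDiffOn a c).continuousOn).mono fun z hz => hz.1)
    · refine Eventually.of_forall fun w => ?_
      refine (norm_indicator_le_norm_self _ w).trans ?_
      rw [Complex.norm_real, Real.norm_of_nonneg (A.rho_nonneg a _)]
      exact rho_le a _
  simp only [key]
  rw [← integral_finsetSum _ fun a _ => hint a]
  refine integral_congr_ae (Eventually.of_forall fun w => ?_)
  simp only
  by_cases h : w ∈ A.O c
  · simp only [indicator_of_mem h]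
    rw [← Finset.sum_mul, ← Complex.ofReal_sum, A.rho_sum, Complex.ofReal_one, one_mul]
  · rw [h0 c w fun h1 => h h1.1]
    simp

/-! ### pairings -/

variable {V : Type} [NormedAddCommGroup V] [NormedSpace ℂ V]
  {V' : Type} [NormedAddCommGroup V'] [NormedSpace ℂ V']

/-- a perfect pairing with values in densities -/
structure DP (S : SB A V) (S' : SB A V') where
  β : V →L[ℂ] V' →L[ℂ] ℂ
  compat : ∀ a b z, z ∈ A.ov a b → ∀ v v',
    ((‖(A.J a b z).det‖ ^ 2 : ℝ) : ℂ) * β (S.T a b z v) (S'.T a b z v') = β v v'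
  sharp : (V →L[ℂ] ℂ) →L[ℂ] V'
  sharp_apply : ∀ φ v, β v (sharp φ) = φ v
  nd : ∀ v', (∀ v, β v v' = 0) → v' = 0

/-- the pairing of two families of functions -/
def prf (β : V →L[ℂ] V' →L[ℂ] ℂ) (u : Fin A.N → C2 → V) (v : Fin A.N → C2 → V') : ℂ :=
  ∑ a, ∫ z, (A.r a z : ℂ) * β (u a z) (v a z)

theorem contDiffOn_β {n : WithTop ℕ∞} (β : V →L[ℂ] V' →L[ℂ] ℂ) {s : Set C2} {f : C2 → V}
    {g : C2 → V'}
    (hf : ContDiffOn ℝ n f s) (hg : ContDiffOn ℝ n g s) :
    ContDiffOn ℝ n (fun z => β (f z) (g z)) s := by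
  have h : ContDiff ℝ n fun p : V × V' => β p.1 p.2 :=
    β.isBoundedBilinearMap.contDiff.restrict_scalars ℝ
  exact h.comp_contDiffOn (hf.prodMk hg)

theorem integrable_β {β : V →L[ℂ] V' →L[ℂ] ℂ} {c : Fin A.N} {f : C2 → V}
    {g : C2 → V'} (hf : ContDiffOn ℝ ∞ f (A.O c)) (hg : ContDiffOn ℝ ∞ g (A.O c))
    (h : CSupp A c f ∨ CSupp A c g) : Integrable fun z => β (f z) (g z) := by
  obtain ⟨L, hL, hLO, h0⟩ : ∃ L : Set C2, IsCompact L ∧ L ⊆ A.O c ∧
      ∀ z, z ∉ L → β (f z) (g z) = 0 := by
    rcases h with ⟨L, hL, hLO, h0⟩ | ⟨L, hL, hLO, h0⟩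
    · exact ⟨L, hL, hLO, fun z hz => by rw [h0 z hz]; simp⟩
    · exact ⟨L, hL, hLO, fun z hz => by rw [h0 z hz]; simp⟩
  have h1 : ContDiff ℝ ∞ fun z => β (f z) (g z) :=
    contDiff_of_supp (A.isOpen_O c) hL.isClosed hLO (contDiffOn_β β hf hg) h0
  exact h1.continuous.integrable_of_hasCompactSupport (HasCompactSupport.intro hL h0)

theorem csupp_r [CompactSpace X] {c : Fin A.N} (f : C2 → V) :
    CSupp A c fun z => (A.r c z : ℂ) • f z :=
  ⟨A.K c, isCompact_K c, K_sub c, fun z hz => by simp only [r_zero hz]; simp⟩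

theorem integrable_pr [CompactSpace X] {β : V →L[ℂ] V' →L[ℂ] ℂ} {c : Fin A.N} {f : C2 → V}
    {g : C2 → V'} (hf : ContDiffOn ℝ ∞ f (A.O c)) (hg : ContDiffOn ℝ ∞ g (A.O c)) :
    Integrable fun z => (A.r c z : ℂ) * β (f z) (g z) := by
  have h1 : ContDiffOn ℝ ∞ (fun z => (A.r c z : ℂ) • f z) (A.O c) :=
    (Complex.ofRealCLM.contDiff.comp_contDiffOn (contDiffOn_r c)).smul hf
  refine (integrable_β (β := β) h1 hg (Or.inl (csupp_r f))).congr
    (Eventually.of_forall fun z => ?_)
  simp

namespace DP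

variable {S : SB A V} {S' : SB A V'} (D : DP S S')

/-- the pairing -/
def pr (u : Fin A.N → C2 → V) (v : Fin A.N → C2 → V') : ℂ := prf D.β u v

theorem pr_def (u : Fin A.N → C2 → V) (v : Fin A.N → C2 → V') :
    D.pr u v = ∑ a, ∫ z, (A.r a z : ℂ) * D.β (u a z) (v a z) := rfl

theorem density {u : Fin A.N → C2 → V} {v : Fin A.N → C2 → V'} {c a : Fin A.N} {z : C2}
    (hz : z ∈ A.ov c a) (hu : u a (A.tau c a z) = S.T c a z (u c z))
    (hv : v a (A.tau c a z) = S'.T c a z (v c z)) :
    ((‖(A.J c a z).det‖ ^ 2 : ℝ) : ℂ) * D.β (u a (A.tau c a z)) (v a (A.tau c a z)) =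
      D.β (u c z) (v c z) := by
  rw [hu, hv, D.compat c a z hz]

variable [IsManifold 𝓘(ℂ, C2) ω X]

/-- the pairing with a section supported in one chart, on the right -/
theorem pr_extz_right (u : S.Sec) {c : Fin A.N} {φ : C2 → V'}
    (hφ : ContDiffOn ℝ ∞ φ (A.O c)) (hc : CSupp A c φ) :
    D.pr u.1 (extz S' c φ) = ∫ z, D.β (u.1 c z) (φ z) := by
  have h1 : ∀ z, D.β (u.1 c z) (extz S' c φ c z) = D.β (u.1 c z) (φ z) := by
    intro z
    by_cases hz : z ∈ A.O c
    · rw [extz_self S' φ hz]
    · rw [sec_off u hz]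
      simp
  have h2 : ∫ z, D.β (u.1 c z) (φ z) = ∫ z, D.β (u.1 c z) (extz S' c φ c z) := by
    simp only [h1]
  rw [h2]
  refine sum_integral_density (f := fun a z => D.β (u.1 a z) (extz S' c φ a z)) c ?_ ?_ ?_
  · intro a z hz
    exact D.density hz (sec_compat u hz) (extz_compat S' φ hz)
  · intro a z hz
    rw [extz_of_notMem S' φ hz, map_zero]
  · simp only [h1]
    exact integrable_β (sec_smooth u c) hφ (Or.inr hc)

/-- the pairing with a section supported in one chart, on the left -/
theorem pr_extz_left {c : Fin A.N} {φ : C2 → V}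
    (hφ : ContDiffOn ℝ ∞ φ (A.O c)) (hc : CSupp A c φ) (v : S'.Sec) :
    D.pr (extz S c φ) v.1 = ∫ z, D.β (φ z) (v.1 c z) := by
  have h1 : ∀ z, D.β (extz S c φ c z) (v.1 c z) = D.β (φ z) (v.1 c z) := by
    intro z
    by_cases hz : z ∈ A.O c
    · rw [extz_self S φ hz]
    · rw [sec_off v hz]
      simp
  have h2 : ∫ z, D.β (φ z) (v.1 c z) = ∫ z, D.β (extz S c φ c z) (v.1 c z) := by
    simp only [h1]
  rw [h2]
  refine sum_integral_density (f := fun a z => D.β (extz S c φ a z) (v.1 a z)) c ?_ ?_ ?_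
  · intro a z hz
    exact D.density hz (extz_compat S φ hz) (sec_compat v hz)
  · intro a z hz
    rw [extz_of_notMem S φ hz]
    simp
  · simp only [h1]
    exact integrable_β hφ (sec_smooth v c) (Or.inl hc)

variable [CompactSpace X]

/-- the pairing is bilinear on sections -/
def prL : S.Sec →ₗ[ℂ] S'.Sec →ₗ[ℂ] ℂ :=
  LinearMap.mk₂ ℂ (fun u v => D.pr u.1 v.1)
    (by
      intro u u' v
      simp only [pr_def]
      rw [← Finset.sum_add_distrib]
      refine Finset.sum_congr rfl fun a _ => ?_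
      rw [← integral_add (integrable_pr (sec_smooth u a) (sec_smooth v a))
        (integrable_pr (sec_smooth u' a) (sec_smooth v a))]
      refine integral_congr_ae (Eventually.of_forall fun z => ?_)
      simp only [Submodule.coe_add, Pi.add_apply, map_add, add_apply]
      ring)
    (by
      intro k u v
      simp only [pr_def]
      rw [smul_eq_mul, Finset.mul_sum]
      refine Finset.sum_congr rfl fun a _ => ?_
      rw [← integral_const_mul]
      refine integral_congr_ae (Eventually.of_forall fun z => ?_)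
      simp only [Submodule.coe_smul, Pi.smul_apply, map_smul, smul_apply, smul_eq_mul]
      ring)
    (by
      intro u v v'
      simp only [pr_def]
      rw [← Finset.sum_add_distrib]
      refine Finset.sum_congr rfl fun a _ => ?_
      rw [← integral_add (integrable_pr (sec_smooth u a) (sec_smooth v a))
        (integrable_pr (sec_smooth u a) (sec_smooth v' a))]
      refine integral_congr_ae (Eventually.of_forall fun z => ?_)
      simp only [Submodule.coe_add, Pi.add_apply, map_add]
      ring)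
    (by
      intro k u v
      simp only [pr_def]
      rw [smul_eq_mul, Finset.mul_sum]
      refine Finset.sum_congr rfl fun a _ => ?_
      rw [← integral_const_mul]
      refine integral_congr_ae (Eventually.of_forall fun z => ?_)
      simp only [Submodule.coe_smul, Pi.smul_apply, map_smul, smul_eq_mul]
      ring)

@[simp] theorem prL_apply (u : S.Sec) (v : S'.Sec) : D.prL u v = D.pr u.1 v.1 := rfl

end DP

/-! ### partition of unity -/

section part

variable [T2Space X] [IsManifold 𝓘(ℂ, C2) ω X] [FiniteDimensional ℂ V]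

/-- extension by zero as a section -/
def extS (S : SB A V) (c : Fin A.N) (F : C2 → V) (hF : ContDiffOn ℝ ∞ F (A.O c))
    (hc : CSupp A c F) : S.Sec := ⟨extz S c F, extz_mem S hF hc⟩

variable [CompactSpace X] {S : SB A V}

theorem contDiffOn_ru (u : S.Sec) (c : Fin A.N) :
    ContDiffOn ℝ ∞ (fun z => (A.r c z : ℂ) • u.1 c z) (A.O c) :=
  (Complex.ofRealCLM.contDiff.comp_contDiffOn (contDiffOn_r c)).smul (sec_smooth u c)

/-- `ρ_c u` as a section -/
def cut (u : S.Sec) (c : Fin A.N) : S.Sec :=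
  extS S c (fun z => (A.r c z : ℂ) • u.1 c z) (contDiffOn_ru u c) (csupp_r _)

theorem cut_apply (u : S.Sec) (c a : Fin A.N) {z : C2} (hz : z ∈ A.O a) :
    (cut u c).1 a z = (A.rho c ((A.e a).symm z) : ℂ) • u.1 a z := by
  change extz S c (fun z => (A.r c z : ℂ) • u.1 c z) a z = _
  by_cases h : z ∈ A.ov a c
  · rw [extz_of_mem S _ h, map_smul, ← sec_compat u (FinAt.tau_mem h), FinAt.tau_tau h,
      r_mem (FinAt.tau_mem_O h), FinAt.symm_tau h]
  · rw [extz_of_notMem S _ h]
    have h1 : (A.e a).symm z ∉ tsupport (A.rho c) := fun h2 => h ⟨hz, A.rho_supp c h2⟩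
    rw [image_eq_zero_of_notMem_tsupport h1]
    simp

theorem sum_cut (u : S.Sec) : ∑ c, cut u c = u := by
  apply Subtype.ext
  funext a z
  rw [Submodule.coe_sum, Finset.sum_apply, Finset.sum_apply]
  by_cases hz : z ∈ A.O a
  · simp only [cut_apply u _ a hz]
    rw [← Finset.sum_smul, ← Complex.ofReal_sum, A.rho_sum, Complex.ofReal_one, one_smul]
  · rw [sec_off u hz]
    exact Finset.sum_eq_zero fun c _ => sec_off (cut u c) hz

end part

end Vale.Agent.P267.H983
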