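import Vale.Agent.P267.H983.SerPr

/-!
# P267 / H983, package SERRE-BUN: non-degeneracy and smoothing of functionals

`DP.nd_right`: the pairing is non-degenerate.
`DP.smoothing`: a functional which is bounded in the sup norm, composed with a kernel operator, is
the pairing with a smooth section of the dual bundle.
-/

set_option linter.unusedSectionVars false

open scoped Manifold ContDiff ComplexConjugate Matrix
open MeasureTheory Set Filter Topology

noncomputable section

namespace Vale.Agent.P267.H983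

open Vale.Agent.P267.FL Vale.Agent.P267.RR Vale.Agent.P267.H462

variable {X : Type*} [TopologicalSpace X] [ChartedSpace C2 X] {A : FinAt X}
  {V : Type} [NormedAddCommGroup V] [NormedSpace ℂ V]
  {V' : Type} [NormedAddCommGroup V'] [NormedSpace ℂ V']
  {S : SB A V} {S' : SB A V'}

/-! ### non-degeneracy -/

section nd

variable [T2Space X] [IsManifold 𝓘(ℂ, C2) ω X] [FiniteDimensional ℂ V] (D : DP S S')

/-- the pairing is non-degenerate -/
theorem DP.nd_right (v : S'.Sec) (h : ∀ u : S.Sec, D.pr u.1 v.1 = 0) : v = 0 := by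
  apply Subtype.ext
  funext c z
  by_cases hz : z ∈ A.O c
  · refine D.nd _ fun v0 => ?_
    have hg : ContDiffOn ℝ ∞ (fun z => D.β v0 (v.1 c z)) (A.O c) :=
      contDiffOn_β D.β contDiffOn_const (sec_smooth v c)
    have h1 : ∀ᵐ x ∂(volume : Measure C2), x ∈ A.O c → (fun z => D.β v0 (v.1 c z)) x = 0 := by
      refine (A.isOpen_O c).ae_eq_zero_of_integral_contDiff_smul_eq_zero
        (hg.continuousOn.locallyIntegrableOn (A.isOpen_O c).measurableSet) fun g hg1 hg2 hg3 => ?_
      have h2 : ContDiffOn ℝ ∞ (fun z => g z • v0) (A.O c) := (hg1.smul contDiff_const).contDiffOn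
      have h3 : CSupp A c fun z => g z • v0 := ⟨tsupport g, hg2, hg3, fun z hz => by
        simp only [image_eq_zero_of_notMem_tsupport hz, zero_smul]⟩
      have h4 := D.pr_extz_left h2 h3 v
      have h4' : D.pr (extz S c fun z => g z • v0) v.1 = 0 := h (extS S c _ h2 h3)
      rw [← h4', h4]
      refine integral_congr_ae (Eventually.of_forall fun x => ?_)
      have h5 : g x • v0 = (g x : ℂ) • v0 := (Complex.coe_smul _ _).symm
      simp only [h5, map_smul, smul_apply, smul_eq_mul, Complex.real_smul]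
    have h2 : (fun z => D.β v0 (v.1 c z)) =ᵐ[(volume : Measure C2).restrict (A.O c)]
        fun _ => 0 := by
      rw [Filter.EventuallyEq, ae_restrict_iff' (A.isOpen_O c).measurableSet]
      exact h1
    exact Measure.eqOn_open_of_ae_eq h2 (A.isOpen_O c) hg.continuousOn continuousOn_const hz
  · exact sec_off v hz

end nd

/-! ### functionals which are bounded in the sup norm -/

/-- bounded in the sup norm over the sets `K a` -/
def Bdd (l : S.Sec →ₗ[ℂ] ℂ) : Prop :=
  ∃ C : ℝ, ∀ (u : S.Sec) (M : ℝ), (∀ b, ∀ w ∈ A.K b, ‖u.1 b w‖ ≤ M) → ‖l u‖ ≤ C * M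

/-- the disjoint union of the compact sets `K a` -/
abbrev Yc (A : FinAt X) : Type := Σ a : Fin A.N, A.K a

instance instCompactYc [CompactSpace X] : CompactSpace (Yc A) := by
  have : ∀ a : Fin A.N, CompactSpace (A.K a) := fun a => isCompact_iff_compactSpace.1 (isCompact_K a)
  infer_instance

/-- restriction of a section to the sets `K a` -/
def resC (u : S.Sec) : C(Yc A, V) :=
  ⟨fun y => u.1 y.1 y.2, by
    rw [continuous_sigma_iff]
    intro a
    exact ((sec_smooth u a).continuousOn.mono (K_sub a)).domRestrict⟩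

theorem resC_apply (u : S.Sec) (y : Yc A) : resC u y = u.1 y.1 y.2 := rfl

/-- the restriction as a linear map -/
def resL (S : SB A V) : S.Sec →ₗ[ℂ] C(Yc A, V) where
  toFun := resC
  map_add' u v := by
    ext y
    rfl
  map_smul' c u := by
    ext y
    rfl

theorem exists_ext [CompactSpace X] {l : S.Sec →ₗ[ℂ] ℂ} (hl : Bdd l) :
    ∃ L : C(Yc A, V) →L[ℂ] ℂ, ∀ u, L (resL S u) = l u := by
  obtain ⟨C, hC⟩ := hl
  have h1 : ∀ u, ‖l u‖ ≤ |C| * ‖resL S u‖ := by
    intro u
    have h2 := hC u ‖resC u‖ fun b w hw => (resC u).norm_coe_le_norm ⟨b, w, hw⟩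
    refine h2.trans ?_
    exact mul_le_mul_of_nonneg_right (le_abs_self C) (norm_nonneg _)
  have hker : LinearMap.ker (resL S) ≤ LinearMap.ker l := by
    intro u hu
    rw [LinearMap.mem_ker] at hu ⊢
    have h2 := h1 u
    rw [hu, norm_zero, mul_zero] at h2
    exact norm_le_zero_iff.1 h2
  let f0 : LinearMap.range (resL S) →ₗ[ℂ] ℂ :=
    ((LinearMap.ker (resL S)).liftQ l hker).comp (resL S).quotKerEquivRange.symm.toLinearMap
  have hf0 : ∀ u, f0 ⟨resL S u, ⟨u, rfl⟩⟩ = l u := by
    intro u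
    have h2 : (resL S).quotKerEquivRange.symm ⟨resL S u, ⟨u, rfl⟩⟩ = Submodule.Quotient.mk u := by
      rw [LinearEquiv.symm_apply_eq]
      apply Subtype.ext
      rw [LinearMap.quotKerEquivRange_apply_mk]
    change ((LinearMap.ker (resL S)).liftQ l hker) ((resL S).quotKerEquivRange.symm
      ⟨resL S u, ⟨u, rfl⟩⟩) = l u
    rw [h2]
    rfl
  let f1 : LinearMap.range (resL S) →L[ℂ] ℂ := f0.mkContinuous |C| (by
    rintro ⟨_, u, rfl⟩
    rw [hf0]
    exact h1 u)
  obtain ⟨g, hg, -⟩ := exists_extension_norm_eq (LinearMap.range (resL S)) f1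
  refine ⟨g, fun u => ?_⟩
  rw [← hf0]
  exact hg ⟨resL S u, ⟨u, rfl⟩⟩

/-! ### smoothing -/

section smooth

variable [CompactSpace X] [FiniteDimensional ℂ V]

/-- the kernel in the second variable -/
def Fk (k : Kern S) (b : Fin A.N) (y : Yc A) (w : C2) : V →L[ℂ] V := k.k y.1 b y.2 w

theorem jointAt_Fk (k : Kern S) (b : Fin A.N) (y : Yc A) {w : C2} (hw : w ∈ A.O b) :
    H439.JointAt C2 ∞ (Fk k b) y w := by
  obtain ⟨a, y0⟩ := y
  refine ⟨Set.range (Sigma.mk a), (isOpen_range_sigmaMk).mem_nhds ⟨y0, rfl⟩, A.O b,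
    (A.isOpen_O b).mem_nhds hw, fun y => (y.2 : C2), fun p => k.k a b p.1 p.2, ?_, ?_, ?_⟩
  · refine Continuous.continuousOn ?_
    rw [continuous_sigma_iff]
    intro a
    exact continuous_subtype_val
  · rintro _ ⟨y, rfl⟩ w hw
    have h : ContDiffOn ℝ ∞ (fun p : C2 × C2 => k.k a b p.1 p.2) (A.O a ×ˢ A.O b) :=
      contDiffOn_clm_of_apply (k.smooth a b)
    exact h.contDiffAt (((A.isOpen_O a).prod (A.isOpen_O b)).mem_nhds ⟨K_sub a y.2, hw⟩)
  · rintro _ ⟨y, rfl⟩ w hw
    rfl

theorem exists_part (k : Kern S) (u : S.Sec) (b : Fin A.N) :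
    ∃ G : C(Yc A, V), ∀ y, G y = ∫ w, A.r b w • Fk k b y w (u.1 b w) := by
  have : FiniteDimensional ℝ V := FiniteDimensional.complexToReal V
  have : CompleteSpace V := FiniteDimensional.complete ℝ V
  set g : C2 → C(Yc A, V) := fun w =>
    A.r b w • H439.evC (Yc A) V V (H439.toC fun y => Fk k b y w) (u.1 b w) with hg
  have hgc : Continuous g := by
    rw [continuous_iff_continuousAt]
    intro w
    by_cases hw : w ∈ A.O b
    · have h1 : ContinuousAt (fun w => H439.toC fun y => Fk k b y w) w :=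
        ((H439.contDiffOn_toC (A.isOpen_O b) fun y w hw =>
          jointAt_Fk k b y hw).continuousOn).continuousAt ((A.isOpen_O b).mem_nhds hw)
      have h2 : ContinuousAt (fun w => H439.evC (Yc A) V V (H439.toC fun y => Fk k b y w)) w :=
        (H439.evC (Yc A) V V).continuous.continuousAt.comp h1
      exact (contDiff_r b).continuous.continuousAt.smul (h2.clm_apply
        ((sec_smooth u b).continuousOn.continuousAt ((A.isOpen_O b).mem_nhds hw)))
    · have h1 : w ∉ A.K b := fun h => hw (K_sub b h)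
      have h2 : ∀ᶠ y in 𝓝 w, g y = 0 := by
        filter_upwards [(isCompact_K b).isClosed.isOpen_compl.mem_nhds h1] with y hy
        rw [hg]
        simp only
        rw [r_zero hy, zero_smul]
      exact (continuousAt_const (y := (0 : C(Yc A, V)))).congr_of_eventuallyEq h2
  have hgs : HasCompactSupport g := by
    refine HasCompactSupport.intro (isCompact_K b) fun w hw => ?_
    rw [hg]
    simp only
    rw [r_zero hw, zero_smul]
  have hgi : Integrable g := hgc.integrable_of_hasCompactSupport hgs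
  refine ⟨∫ w, g w, fun y => ?_⟩
  let ev : C(Yc A, V) →L[ℂ] V := ContinuousMap.evalCLM ℂ y
  have h1 : (∫ w, g w) y = ev (∫ w, g w) := rfl
  rw [h1, ← ContinuousLinearMap.integral_comp_comm ev hgi]
  refine integral_congr_ae (Eventually.of_forall fun w => ?_)
  show A.r b w • (H439.evC (Yc A) V V (H439.toC fun y => Fk k b y w) (u.1 b w)) y =
    A.r b w • Fk k b y w (u.1 b w)
  by_cases hw : w ∈ A.O b
  · rw [H439.evC_apply, H439.toC_apply (H439.continuous_fam fun y => jointAt_Fk k b y hw)]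
  · rw [r_notMem hw, zero_smul, zero_smul]

variable [T2Space X] [IsManifold 𝓘(ℂ, C2) ω X] [FiniteDimensional ℂ V'] (D : DP S S')

/-- **smoothing of functionals** -/
theorem DP.smoothing (k : Kern S) {l : S.Sec →ₗ[ℂ] ℂ} (hl : Bdd l) :
    ∃ v : S'.Sec, ∀ u s : S.Sec, s.1 = k.op u.1 → l s = D.pr u.1 v.1 := by
  have : FiniteDimensional ℝ V := FiniteDimensional.complexToReal V
  have : CompleteSpace V := FiniteDimensional.complete ℝ V
  obtain ⟨L, hL⟩ := exists_ext hl
  let η : Fin A.N → C2 → V →L[ℂ] ℂ := fun b => H439.etaOf (Fk k b) L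
  have hη : ∀ b, ContDiffOn ℝ ∞ (η b) (A.O b) := fun b =>
    H439.contDiffOn_etaOf (E' := C2) L (A.isOpen_O b) fun y w hw => jointAt_Fk k b y hw
  let φ : Fin A.N → C2 → V' := fun b w => (A.r b w : ℂ) • D.sharp (η b w)
  have hφ : ∀ b, ContDiffOn ℝ ∞ (φ b) (A.O b) := fun b =>
    (Complex.ofRealCLM.contDiff.comp_contDiffOn (contDiffOn_r b)).smul
      ((D.sharp.contDiff.restrict_scalars ℝ).comp_contDiffOn (hη b))
  have hφc : ∀ b, CSupp A b (φ b) := fun b => csupp_r _
  refine ⟨∑ b, extS S' b (φ b) (hφ b) (hφc b), fun u s hs => ?_⟩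
  choose G hG using exists_part k u
  have h1 : resL S s = ∑ b, G b := by
    ext y
    have h2 : (resL S s) y = s.1 y.1 y.2 := rfl
    rw [h2, hs, ContinuousMap.sum_apply]
    have h3 : (y.2 : C2) ∈ A.O y.1 := K_sub y.1 y.2.2
    rw [Kern.op, if_pos h3]
    refine Finset.sum_congr rfl fun b _ => ?_
    rw [hG]
    refine integral_congr_ae (Eventually.of_forall fun w => ?_)
    exact Complex.coe_smul _ _
  rw [← hL, h1, map_sum]
  have h4 : D.pr u.1 (∑ b, extS S' b (φ b) (hφ b) (hφc b)).1 =
      ∑ b, D.pr u.1 (extS S' b (φ b) (hφ b) (hφc b)).1 := by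
    rw [← D.prL_apply, map_sum]
    rfl
  rw [h4]
  refine Finset.sum_congr rfl fun b _ => ?_
  have h5 : D.pr u.1 (extS S' b (φ b) (hφ b) (hφc b)).1 = ∫ z, D.β (u.1 b z) (φ b z) :=
    D.pr_extz_right u (hφ b) (hφc b)
  rw [h5]
  have h6 := H439.functional_kernel (E' := C2) (volume : Measure C2) L (A.isOpen_O b)
    (fun y w hw => jointAt_Fk k b y hw) (contDiff_r b).continuous (hasCompactSupport_r b)
    ((tsupport_r b).trans (K_sub b)) (sec_smooth u b).continuousOn (hG b)
  rw [h6]
  refine integral_congr_ae (Eventually.of_forall fun w => ?_)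
  change (A.r b w : ℂ) * η b w (u.1 b w) = D.β (u.1 b w) ((A.r b w : ℂ) • D.sharp (η b w))
  rw [map_smul, D.sharp_apply, smul_eq_mul]

end smooth

end Vale.Agent.P267.H983
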